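import Mathlib

/-! Counting estimates for finite configurations in three-space. -/

open Finset

namespace Vale.Agent.P171

abbrev V3 := EuclideanSpace ℝ (Fin 3)

/-- Double sum of a radial kernel. -/
noncomputable def Q (K : ℝ → ℝ) (A B : Finset V3) : ℝ := ∑ x ∈ A, ∑ y ∈ B, K (dist x y)

noncomputable def cell (s : ℝ) (x : V3) : Fin 3 → ℤ := fun k => ⌊x k / s⌋

/-- Number of ordered pairs in a common cell of side `s`. -/
noncomputable def S (s : ℝ) (A : Finset V3) : ℝ :=
  ∑ x ∈ A, ∑ y ∈ A, if cell s x = cell s y then 1 else 0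

lemma pair_le {α G : Type} [DecidableEq G] (f g : α → G) (A B : Finset α) {lam : ℝ}
    (hl : 0 < lam) :
    (∑ x ∈ A, ∑ y ∈ B, if f x = g y then (1 : ℝ) else 0) ≤
      (lam * (∑ x ∈ A, ∑ y ∈ A, if f x = f y then (1 : ℝ) else 0) +
        (∑ x ∈ B, ∑ y ∈ B, if g x = g y then (1 : ℝ) else 0) / lam) / 2 := by
  set nA : G → ℝ := fun c => ∑ y ∈ A, if c = f y then (1 : ℝ) else 0 with hnA
  set nB : G → ℝ := fun c => ∑ y ∈ B, if c = g y then (1 : ℝ) else 0 with hnB
  have hA1 : ∀ x ∈ A, 1 ≤ nA (f x) := by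
    intro x hx
    have := Finset.single_le_sum (f := fun y => if f x = f y then (1 : ℝ) else 0)
      (fun y _ => by positivity) hx
    simpa only [if_true] using this
  have hB1 : ∀ y ∈ B, 1 ≤ nB (g y) := by
    intro x hx
    have := Finset.single_le_sum (f := fun y => if g x = g y then (1 : ℝ) else 0)
      (fun y _ => by positivity) hx
    simpa only [if_true] using this
  have hA0 : ∀ c, 0 ≤ nA c := fun c => Finset.sum_nonneg fun y _ => by positivity
  have hB0 : ∀ c, 0 ≤ nB c := fun c => Finset.sum_nonneg fun y _ => by positivity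
  have h1 : (∑ x ∈ A, ∑ y ∈ B, if f x = g y then (1 : ℝ) else 0) ≤
      ∑ x ∈ A, ∑ y ∈ B, ((if f x = g y then (1 : ℝ) else 0) * (lam * nA (f x) / nB (f x)) +
        (if g y = f x then (1 : ℝ) else 0) * (nB (g y) / lam / nA (g y))) / 2 := by
    refine Finset.sum_le_sum fun x hx => Finset.sum_le_sum fun y hy => ?_
    by_cases h : f x = g y
    · have a1 := hA1 x hx
      have b1 := hB1 y hy
      rw [h] at a1
      simp only [h, if_true, one_mul]
      set u := nA (g y)
      set v := nB (g y)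
      have : lam * u / v + v / lam / u - 2 = (lam * u - v) ^ 2 / (lam * u * v) := by
        field_simp; ring
      have h2 : 0 ≤ (lam * u - v) ^ 2 / (lam * u * v) := by positivity
      linarith
    · simp [h, Ne.symm h]
  refine h1.trans ?_
  simp only [← Finset.sum_div, Finset.sum_add_distrib]
  gcongr
  · rw [Finset.mul_sum]
    refine Finset.sum_le_sum fun x hx => ?_
    rw [← Finset.sum_mul]
    change nB (f x) * (lam * nA (f x) / nB (f x)) ≤ lam * nA (f x)
    rcases (hB0 (f x)).eq_or_lt with h | h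
    · rw [← h, zero_mul]; exact mul_nonneg hl.le (hA0 _)
    · rw [mul_div_cancel₀ _ h.ne']
  · rw [Finset.sum_comm, Finset.sum_div]
    refine Finset.sum_le_sum fun y hy => ?_
    rw [← Finset.sum_mul]
    change nA (g y) * (nB (g y) / lam / nA (g y)) ≤ nB (g y) / lam
    rcases (hA0 (g y)).eq_or_lt with h | h
    · rw [← h, zero_mul]; exact div_nonneg (hB0 _) hl.le
    · rw [mul_div_cancel₀ _ h.ne']

lemma cell_lemma (s : ℝ) (r : ℕ) (A B : Finset V3) (w : V3 → V3 → ℝ)
    (hw : ∀ x ∈ A, ∀ y ∈ B, w x y ≤ 1)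
    (h : ∀ x ∈ A, ∀ y ∈ B, 0 < w x y → ∀ k, |cell s x k - cell s y k| ≤ r) {lam : ℝ}
    (hl : 0 < lam) :
    ∑ x ∈ A, ∑ y ∈ B, w x y ≤ (2 * r + 1) ^ 3 * ((lam * S s A + S s B / lam) / 2) := by
  set D : Finset (Fin 3 → ℤ) := Fintype.piFinset fun _ => Finset.Icc (-(r : ℤ)) r with hD
  have hc : (D.card : ℝ) = (2 * r + 1) ^ 3 := by
    rw [hD, Fintype.card_piFinset]
    simp only [Int.card_Icc, Finset.prod_const, Finset.card_univ, Fintype.card_fin]
    have : ((r : ℤ) + 1 - -(r : ℤ)).toNat = 2 * r + 1 := by omega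
    rw [this]; push_cast; ring
  have h1 : ∑ x ∈ A, ∑ y ∈ B, w x y ≤
      ∑ x ∈ A, ∑ y ∈ B, ∑ d ∈ D, if cell s x + d = cell s y then (1 : ℝ) else 0 := by
    refine Finset.sum_le_sum fun x hx => Finset.sum_le_sum fun y hy => ?_
    by_cases hp : 0 < w x y
    · have hm : cell s y - cell s x ∈ D := by
        rw [hD, Fintype.mem_piFinset]
        intro k
        have := abs_le.1 (h x hx y hy hp k)
        simp only [Pi.sub_apply, Finset.mem_Icc]
        omega
      have := Finset.single_le_sum (f := fun d => if cell s x + d = cell s y then (1 : ℝ) else 0)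
        (fun y _ => by positivity) hm
      simp only [add_sub_cancel, if_true] at this
      exact (hw x hx y hy).trans this
    · exact (not_lt.1 hp).trans (Finset.sum_nonneg fun d _ => by positivity)
  refine h1.trans ?_
  simp_rw [Finset.sum_comm (s := B) (t := D)]
  rw [Finset.sum_comm, ← hc, ← nsmul_eq_mul, ← Finset.sum_const]
  refine Finset.sum_le_sum fun d _ => ?_
  have := pair_le (fun x => cell s x + d) (cell s) A B hl
  simpa only [add_left_inj, S] using this

lemma coord_le_dist (x y : V3) (k : Fin 3) : |x k - y k| ≤ dist x y := by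
  have := PiLp.norm_apply_le (x - y) k
  simpa [dist_eq_norm] using this

lemma dist_le_of_coord {x y : V3} {b : ℝ} (h : ∀ k, |x k - y k| ≤ b) : dist x y ≤ 2 * b := by
  have hb : 0 ≤ b := (abs_nonneg _).trans (h 0)
  rw [EuclideanSpace.dist_eq, Real.sqrt_le_left (by positivity), Fin.sum_univ_three]
  simp only [Real.dist_eq]
  have h0 := pow_le_pow_left₀ (abs_nonneg _) (h 0) 2
  have h1 := pow_le_pow_left₀ (abs_nonneg _) (h 1) 2
  have h2 := pow_le_pow_left₀ (abs_nonneg _) (h 2) 2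
  nlinarith

lemma cell_close {s : ℝ} (hs : 0 < s) {r : ℕ} {x y : V3} {k : Fin 3}
    (h : |x k - y k| ≤ r * s) : |cell s x k - cell s y k| ≤ r := by
  have h' := abs_le.1 h
  have h1 : x k / s ≤ y k / s + r := by
    rw [div_add' _ _ _ hs.ne', div_le_div_iff_of_pos_right hs]; linarith
  have h2 : y k / s ≤ x k / s + r := by
    rw [div_add' _ _ _ hs.ne', div_le_div_iff_of_pos_right hs]; linarith
  have h3 := Int.floor_mono h1
  have h4 := Int.floor_mono h2
  rw [Int.floor_add_natCast] at h3 h4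
  simp only [cell]
  rw [abs_le]; omega

lemma same_cell {s : ℝ} (hs : 0 < s) {x y : V3} (h : cell s x = cell s y) (k : Fin 3) :
    |x k - y k| < s := by
  have h1 : ⌊x k / s⌋ = ⌊y k / s⌋ := congrFun h k
  have h2 := Int.abs_sub_lt_one_of_floor_eq_floor h1
  rw [← sub_div, abs_div, abs_of_pos hs, div_lt_one hs] at h2
  exact h2

lemma S_nonneg (s : ℝ) (A : Finset V3) : 0 ≤ S s A :=
  Finset.sum_nonneg fun _ _ => Finset.sum_nonneg fun _ _ => by positivity

lemma card_le_S (s : ℝ) (A : Finset V3) : (A.card : ℝ) ≤ S s A := by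
  rw [Finset.card_eq_sum_ones]
  push_cast
  refine Finset.sum_le_sum fun x hx => ?_
  have := Finset.single_le_sum (f := fun y => if cell s x = cell s y then (1 : ℝ) else 0)
    (fun y _ => by positivity) hx
  simpa using this

lemma card_sq_le_S {p : ℕ} (hp : 1 ≤ p) (A : Finset V3)
    (h : ∀ x ∈ A, ∀ y ∈ A, ∀ k, |x k - y k| ≤ p) :
    (A.card : ℝ) ^ 2 ≤ 27 * (p : ℝ) ^ 3 * S 1 A := by
  have := cell_lemma 1 p A A (fun _ _ => 1) (fun _ _ _ _ => le_rfl)
    (fun x hx y hy _ k => cell_close one_pos (by simpa using h x hx y hy k)) one_pos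
  simp only [Finset.sum_const, nsmul_eq_mul, mul_one, one_mul, div_one] at this
  have hp' : (1 : ℝ) ≤ p := by exact_mod_cast hp
  have h3 : (2 * (p : ℝ) + 1) ^ 3 ≤ (3 * p) ^ 3 := by gcongr; linarith
  have h4 := S_nonneg 1 A
  nlinarith

/-- The repulsive core. -/
noncomputable def phi0 (r : ℝ) : ℝ := if r < 1 then (r ^ 4)⁻¹ else 0

def Rk (k : ℕ) : ℕ := 8 * (k + 1)

noncomputable def psi (k : ℕ) (r : ℝ) : ℝ :=
  if 1 ≤ r ∧ r ≤ Rk k then ((Rk k : ℝ) ^ 3)⁻¹ else 0

noncomputable def gg (a : ℕ → ℝ) (r : ℝ) : ℝ := ∑' k, a k * psi k r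

noncomputable def phi (a : ℕ → ℝ) (r : ℝ) : ℝ := phi0 r - gg a r

structure Adm (a : ℕ → ℝ) : Prop where
  nonneg : ∀ k, 0 ≤ a k
  summable : Summable a

lemma Rk_pos (k : ℕ) : (1 : ℝ) ≤ Rk k := by
  have : 1 ≤ Rk k := by unfold Rk; omega
  exact_mod_cast this

lemma phi0_nonneg (r : ℝ) : 0 ≤ phi0 r := by unfold phi0; split_ifs <;> positivity

lemma psi_nonneg (k : ℕ) (r : ℝ) : 0 ≤ psi k r := by unfold psi; split_ifs <;> positivity

lemma psi_le_one (k : ℕ) (r : ℝ) : psi k r ≤ 1 := by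
  unfold psi
  split_ifs
  · exact inv_le_one_of_one_le₀ (one_le_pow₀ (Rk_pos k))
  · exact zero_le_one

lemma Adm.summable_psi {a : ℕ → ℝ} (ha : Adm a) (r : ℝ) : Summable fun k => a k * psi k r :=
  Summable.of_nonneg_of_le (fun k => mul_nonneg (ha.nonneg k) (psi_nonneg k r))
    (fun k => mul_le_of_le_one_right (ha.nonneg k) (psi_le_one k r)) ha.summable

lemma Adm.gg_nonneg {a : ℕ → ℝ} (ha : Adm a) (r : ℝ) : 0 ≤ gg a r :=
  tsum_nonneg fun k => mul_nonneg (ha.nonneg k) (psi_nonneg k r)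

lemma Adm.gg_le {a : ℕ → ℝ} (ha : Adm a) (r : ℝ) : gg a r ≤ ∑' k, a k :=
  (ha.summable_psi r).tsum_le_tsum
    (fun k => mul_le_of_le_one_right (ha.nonneg k) (psi_le_one k r)) ha.summable

lemma Adm.mass_nonneg {a : ℕ → ℝ} (ha : Adm a) : 0 ≤ ∑' k, a k := tsum_nonneg ha.nonneg

lemma Adm.add {a b : ℕ → ℝ} (ha : Adm a) (hb : Adm b) : Adm (a + b) :=
  ⟨fun k => add_nonneg (ha.nonneg k) (hb.nonneg k), ha.summable.add hb.summable⟩

lemma Adm.gg_add {a b : ℕ → ℝ} (ha : Adm a) (hb : Adm b) (r : ℝ) :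
    gg (a + b) r = gg a r + gg b r := by
  unfold gg
  rw [← (ha.summable_psi r).tsum_add (hb.summable_psi r)]
  simp [add_mul]

lemma adm_single (k : ℕ) {t : ℝ} (ht : 0 ≤ t) : Adm (Pi.single k t) :=
  ⟨fun j => by by_cases h : j = k <;> simp [h, ht],
    (hasSum_pi_single k t).summable⟩

lemma gg_single (k : ℕ) (t r : ℝ) : gg (Pi.single k t) r = t * psi k r := by
  unfold gg
  rw [tsum_eq_single k]
  · simp
  · intro j hj; simp [hj]

lemma gg_lt_one (a : ℕ → ℝ) {r : ℝ} (hr : r < 1) : gg a r = 0 := by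
  unfold gg psi
  simp [not_le.2 hr]

lemma phi_zero (a : ℕ → ℝ) : phi a 0 = 0 := by
  simp [phi, phi0, gg_lt_one a one_pos]

lemma phi0_of_one_le {r : ℝ} (hr : 1 ≤ r) : phi0 r = 0 := by simp [phi0, not_lt.2 hr]

lemma Q_psi_le_cell (k : ℕ) {s : ℝ} (hs : 0 < s) {r : ℕ} (hr : (Rk k : ℝ) = r * s) (hr1 : 1 ≤ r)
    (A B : Finset V3) {lam : ℝ} (hl : 0 < lam) :
    Q (psi k) A B ≤ 27 / s ^ 3 * ((lam * S s A + S s B / lam) / 2) := by
  have hR := Rk_pos k
  have h := cell_lemma s r A B (fun x y => (Rk k : ℝ) ^ 3 * psi k (dist x y))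
    (fun x _ y _ => by
      unfold psi; split_ifs
      · rw [mul_inv_cancel₀ (by positivity)]
      · simp)
    (fun x _ y _ hp j => by
      refine cell_close hs ((coord_le_dist x y j).trans ?_)
      by_contra hc
      have : psi k (dist x y) = 0 := by
        unfold psi; rw [if_neg]; rw [hr]; tauto
      simp [this] at hp) hl
  simp only [← Finset.mul_sum] at h
  have hS : 0 ≤ (lam * S s A + S s B / lam) / 2 := by
    have := S_nonneg s A; have := S_nonneg s B; positivity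
  have hr' : (1 : ℝ) ≤ r := by exact_mod_cast hr1
  have h3 : (2 * (r : ℝ) + 1) ^ 3 ≤ (Rk k : ℝ) ^ 3 * (27 / s ^ 3) := by
    rw [hr]
    calc (2 * (r : ℝ) + 1) ^ 3 ≤ (3 * r) ^ 3 := by gcongr; linarith
      _ = _ := by field_simp; ring
  have h4 : (Rk k : ℝ) ^ 3 * Q (psi k) A B ≤
      (Rk k : ℝ) ^ 3 * (27 / s ^ 3 * ((lam * S s A + S s B / lam) / 2)) := by
    refine h.trans ?_
    rw [← mul_assoc]; gcongr
  exact le_of_mul_le_mul_left h4 (by positivity)

lemma Q_psi_le (k : ℕ) (A B : Finset V3) {lam : ℝ} (hl : 0 < lam) :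
    Q (psi k) A B ≤ 27 * ((lam * S 1 A + S 1 B / lam) / 2) := by
  have := Q_psi_le_cell k one_pos (r := Rk k) (by simp) (by unfold Rk; omega) A B hl
  simpa using this

lemma Adm.hasSum_Q {a : ℕ → ℝ} (ha : Adm a) (A B : Finset V3) :
    HasSum (fun k => a k * Q (psi k) A B) (Q (gg a) A B) := by
  unfold Q
  simp_rw [Finset.mul_sum]
  exact hasSum_sum fun x _ => hasSum_sum fun y _ => (ha.summable_psi _).hasSum

lemma Adm.Q_gg_le {a : ℕ → ℝ} (ha : Adm a) (A B : Finset V3) {lam : ℝ} (hl : 0 < lam) :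
    Q (gg a) A B ≤ (∑' k, a k) * (27 * ((lam * S 1 A + S 1 B / lam) / 2)) :=
  hasSum_le (fun k => mul_le_mul_of_nonneg_left (Q_psi_le k A B hl) (ha.nonneg k))
    (ha.hasSum_Q A B) (ha.summable.hasSum.mul_right _)

lemma superstable0 (c : ℝ) : ∃ C : ℝ, 0 ≤ C ∧ ∀ A : Finset V3,
    -(1 / 2) * Q phi0 A A + c * S 1 A ≤ C * A.card := by
  obtain ⟨m0, hm0⟩ := exists_nat_ge (250 * c)
  set m : ℕ := m0 + 1 with hm
  have hm1 : (1 : ℝ) ≤ m := by rw [hm]; push_cast; linarith [Nat.cast_nonneg (α := ℝ) m0]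
  have hmc : 250 * c ≤ m := by rw [hm]; push_cast; linarith
  refine ⟨(m : ℝ) ^ 4 / 2, by positivity, fun A => ?_⟩
  set δ : ℝ := 1 / (2 * m) with hδ
  have hδ0 : 0 < δ := by positivity
  have h1 : S 1 A ≤ (2 * ((2 * m : ℕ) : ℝ) + 1) ^ 3 * ((1 * S δ A + S δ A / 1) / 2) := by
    refine cell_lemma δ (2 * m) A A (fun x y => if cell 1 x = cell 1 y then 1 else 0)
      (fun x _ y _ => by split_ifs <;> norm_num) (fun x _ y _ hp k => ?_) one_pos
    have hxy : cell 1 x = cell 1 y := by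
      by_contra hc; simp [hc] at hp
    refine cell_close hδ0 ((same_cell one_pos hxy k).le.trans (le_of_eq ?_))
    rw [hδ]; push_cast; field_simp
  have h2 : (m : ℝ) ^ 4 * S δ A ≤ Q phi0 A A + (m : ℝ) ^ 4 * A.card := by
    unfold S Q
    rw [Finset.card_eq_sum_ones]
    push_cast
    rw [Finset.mul_sum, Finset.mul_sum, ← Finset.sum_add_distrib]
    refine Finset.sum_le_sum fun x hx => ?_
    have e : (m : ℝ) ^ 4 * 1 = ∑ y ∈ A, if x = y then (m : ℝ) ^ 4 else 0 := by
      rw [Finset.sum_ite_eq]; simp [hx]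
    rw [e, Finset.mul_sum, ← Finset.sum_add_distrib]
    refine Finset.sum_le_sum fun y _ => ?_
    have hp := phi0_nonneg (dist x y)
    by_cases hxy : x = y
    · simp only [hxy, if_true] at hp ⊢; linarith
    · simp only [hxy, if_false, add_zero]
      split_ifs with hc
      · have hd : dist x y < 1 / m := by
          have h3 : ∀ k, |x k - y k| < δ := same_cell hδ0 hc
          obtain ⟨k, hk⟩ := Finite.exists_max fun k => |x k - y k|
          have := dist_le_of_coord hk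
          have h4 := h3 k
          have : 2 * δ = 1 / m := by rw [hδ]; field_simp
          linarith
        have hd0 : 0 < dist x y := dist_pos.2 hxy
        have hd1 : dist x y < 1 := hd.trans_le (by rw [div_le_one (by positivity)]; exact hm1)
        rw [phi0, if_pos hd1, mul_one, le_inv_comm₀ (by positivity) (by positivity), ← inv_pow,
          ← one_div]
        gcongr
      · simpa using hp
  have hS := S_nonneg δ A
  have hS1 := S_nonneg 1 A
  have h3 : S 1 A ≤ 125 * (m : ℝ) ^ 3 * S δ A := by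
    refine h1.trans ?_
    have : (2 * ((2 * m : ℕ) : ℝ) + 1) ^ 3 ≤ (5 * (m : ℝ)) ^ 3 := by
      push_cast; gcongr; linarith
    nlinarith
  have h4 : c * S 1 A ≤ (m : ℝ) / 250 * S 1 A := by gcongr; linarith
  have h5 : (m : ℝ) / 250 * S 1 A ≤ (m : ℝ) / 250 * (125 * (m : ℝ) ^ 3 * S δ A) := by gcongr
  nlinarith

/-- Minus energy plus chemical potential times particle number. -/
noncomputable def HH (a : ℕ → ℝ) (μ : ℝ) (A : Finset V3) : ℝ :=
  -(1 / 2) * Q (phi a) A A + μ * A.card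

lemma Q_phi (a : ℕ → ℝ) (A B : Finset V3) : Q (phi a) A B = Q phi0 A B - Q (gg a) A B := by
  simp [Q, phi, Finset.sum_sub_distrib]

lemma superstable (c A0 μ0 : ℝ) : ∃ C : ℝ, 0 ≤ C ∧ ∀ a : ℕ → ℝ, Adm a → ∑' k, a k ≤ A0 →
    ∀ μ ≤ μ0, ∀ A : Finset V3, HH a μ A + c * S 1 A ≤ C * A.card := by
  obtain ⟨C, hC, h⟩ := superstable0 (c + 27 * A0 / 2)
  refine ⟨C + |μ0|, by positivity, fun a ha hA μ hμ A => ?_⟩
  have h1 := h A
  have h2 := ha.Q_gg_le A A one_pos
  have hS := S_nonneg 1 A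
  have h3 : (∑' k, a k) * (27 * ((1 * S 1 A + S 1 A / 1) / 2)) ≤ A0 * (27 * S 1 A) := by
    have : (27 * ((1 * S 1 A + S 1 A / 1) / 2)) = 27 * S 1 A := by ring
    rw [this]; gcongr
  have h4 : μ * A.card ≤ |μ0| * A.card := by
    have := le_abs_self μ0
    gcongr; linarith
  rw [HH, Q_phi]
  nlinarith

lemma HH_add_le {a r : ℕ → ℝ} (ha : Adm a) (hr : Adm r) (μ : ℝ) (A : Finset V3) :
    HH (a + r) μ A ≤ HH a μ A + 27 * (∑' k, r k) / 2 * S 1 A := by
  have h2 := hr.Q_gg_le A A one_pos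
  have : Q (gg (a + r)) A A = Q (gg a) A A + Q (gg r) A A := by
    simp [Q, ha.gg_add hr, Finset.sum_add_distrib]
  simp only [HH, Q_phi, this]
  nlinarith

end Vale.Agent.P171
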