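import Vale.Agent.P171.Iter
import Vale.Agent.P171.Count

/-! Boltzmann weights, boxes, and decomposition lemmas. -/

open MeasureTheory Finset
open scoped ENNReal

namespace Vale.Agent.P171

/-- Boltzmann weight of a list of distinct points. -/
noncomputable def W (H : Finset V3 → ℝ) (l : List V3) : ℝ≥0∞ :=
  if l.Nodup then ENNReal.ofReal (Real.exp (H l.toFinset)) else 0

def box (L : ℝ) : Set V3 := {p | ∀ k, p k ∈ Set.Icc 0 L}

def blk (s ℓ : ℝ) (j : Fin 3 → ℕ) : Set V3 := {p | ∀ k, p k ∈ Set.Icc (s * j k) (s * j k + ℓ)}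

def J (n : ℕ) : Finset (Fin 3 → ℕ) := Fintype.piFinset fun _ => range n

lemma card_J (n : ℕ) : (J n).card = n ^ 3 := by
  simp [J, Fintype.card_piFinset]

lemma measurable_phi0 : Measurable phi0 := by
  unfold phi0
  exact Measurable.ite measurableSet_Iio (by fun_prop) measurable_const

lemma measurable_psi (k : ℕ) : Measurable (psi k) := by
  unfold psi
  exact Measurable.ite measurableSet_Icc measurable_const measurable_const

lemma Adm.measurable_gg {a : ℕ → ℝ} (ha : Adm a) : Measurable (gg a) := by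
  refine measurable_of_tendsto_metrizable
    (f := fun n r => ∑ k ∈ range n, a k * psi k r) (fun n => ?_) ?_
  · exact Finset.measurable_sum _ fun k _ => (measurable_psi k).const_mul _
  · rw [tendsto_pi_nhds]
    exact fun r => (ha.summable_psi r).hasSum.tendsto_sum_nat

lemma Adm.measurable_phi {a : ℕ → ℝ} (ha : Adm a) : Measurable (phi a) :=
  measurable_phi0.sub ha.measurable_gg

lemma toFinset_ofFn {n : ℕ} (x : Fin n → V3) : (List.ofFn x).toFinset = univ.image x := by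
  ext y; simp [List.mem_ofFn]

lemma HH_ofFn (a : ℕ → ℝ) (μ : ℝ) {n : ℕ} {x : Fin n → V3} (hx : Function.Injective x) :
    HH a μ (List.ofFn x).toFinset =
      -(1 / 2) * (∑ i, ∑ j, phi a (dist (x i) (x j))) + μ * n := by
  rw [toFinset_ofFn, HH, Q, Finset.card_image_of_injective _ hx,
    Finset.sum_image fun i _ j _ h => hx h]
  simp_rw [Finset.sum_image fun i _ j _ h => hx h]
  simp

lemma measurableSet_inj (n : ℕ) : MeasurableSet {x : Fin n → V3 | Function.Injective x} := by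
  have : {x : Fin n → V3 | Function.Injective x} = ⋂ i, ⋂ j, {x | x i = x j → i = j} := by
    ext x; simp [Function.Injective]
  rw [this]
  refine MeasurableSet.iInter fun i => MeasurableSet.iInter fun j => ?_
  by_cases h : i = j
  · simp [h]
  · simp only [h, imp_false]
    exact (measurableSet_eq_fun (measurable_pi_apply i) (measurable_pi_apply j)).compl

lemma Adm.measurable_sum {a : ℕ → ℝ} (ha : Adm a) (n : ℕ) :
    Measurable fun x : Fin n → V3 => ∑ i, ∑ j, phi a (dist (x i) (x j)) :=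
  Finset.measurable_sum _ fun i _ => Finset.measurable_sum _ fun j _ =>
    ha.measurable_phi.comp ((measurable_pi_apply i).dist (measurable_pi_apply j))

lemma Adm.meas_W {a : ℕ → ℝ} (ha : Adm a) (μ : ℝ) : Meas (W (HH a μ)) := by
  classical
  intro n
  have h : Measurable fun x : Fin n → V3 => ENNReal.ofReal (Real.exp
      (-(1 / 2) * (∑ i, ∑ j, phi a (dist (x i) (x j))) + μ * n)) :=
    (((ha.measurable_sum n).const_mul _).add_const _).exp.ennreal_ofReal
  have := @Measurable.ite _ _ _ _ _ _ (fun x : Fin n → V3 => Function.Injective x)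
    (Classical.decPred _) (measurableSet_inj n) h (measurable_const (a := 0))
  convert this using 2 with x
  unfold W
  by_cases hx : Function.Injective x
  · rw [if_pos (List.nodup_ofFn.2 hx), if_pos hx, HH_ofFn a μ hx]
  · rw [if_neg (fun h => hx (List.nodup_ofFn.1 h)), if_neg hx]

lemma measurable_coord (k : Fin 3) : Measurable fun p : V3 => p k := by fun_prop

lemma measurableSet_box (L : ℝ) : MeasurableSet (box L) := by
  unfold box
  rw [Set.ofPred_forall]
  exact MeasurableSet.iInter fun k => measurable_coord k measurableSet_Icc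

lemma measurableSet_blk (s ℓ : ℝ) (j : Fin 3 → ℕ) : MeasurableSet (blk s ℓ j) := by
  unfold blk
  rw [Set.ofPred_forall]
  exact MeasurableSet.iInter fun k => measurable_coord k measurableSet_Icc

lemma volume_box {L : ℝ} (hL : 0 ≤ L) : volume (box L) = ENNReal.ofReal (L ^ 3) := by
  have : box L = WithLp.ofLp ⁻¹' (Set.Icc (fun _ => 0) (fun _ => L) : Set (Fin 3 → ℝ)) := by
    ext p; simp [box, Set.mem_Icc, Pi.le_def, forall_and]
  rw [this, (PiLp.volume_preserving_ofLp (Fin 3)).measure_preimage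
    measurableSet_Icc.nullMeasurableSet, Real.volume_Icc_pi]
  simp [ENNReal.ofReal_pow hL]

noncomputable def vec (s : ℝ) (j : Fin 3 → ℕ) : V3 := WithLp.toLp 2 fun k => s * j k

lemma preimage_blk (s ℓ : ℝ) (j : Fin 3 → ℕ) : (fun x => x + vec s j) ⁻¹' blk s ℓ j = box ℓ := by
  ext p
  simp only [blk, box, vec, Set.mem_preimage, Set.mem_ofPred_eq, PiLp.add_apply, Set.mem_Icc]
  refine forall_congr' fun k => ?_
  constructor <;> rintro ⟨h1, h2⟩ <;> constructor <;> linarith

lemma volume_blk (s : ℝ) {ℓ : ℝ} (hℓ : 0 ≤ ℓ) (j : Fin 3 → ℕ) :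
    volume (blk s ℓ j) = ENNReal.ofReal (ℓ ^ 3) := by
  rw [← volume_box hℓ, ← preimage_blk s ℓ j, measure_preimage_add_right]

lemma W_map (a : ℕ → ℝ) (μ : ℝ) (v : V3) (l : List V3) :
    W (HH a μ) (l.map fun x => x + v) = W (HH a μ) l := by
  have hi : Function.Injective fun x : V3 => x + v := add_left_injective v
  unfold W
  simp only [List.nodup_map_iff hi]
  have : (l.map fun x => x + v).toFinset = l.toFinset.image fun x => x + v := by
    ext y; simp only [List.mem_toFinset, List.mem_map, Finset.mem_image]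
  rw [this, HH, HH, Q, Q, Finset.card_image_of_injective _ hi,
    Finset.sum_image fun i _ j _ h => hi h]
  simp_rw [Finset.sum_image fun i _ j _ h => hi h]
  simp

lemma Xi_blk (a : ℕ → ℝ) (μ s ℓ : ℝ) (j : Fin 3 → ℕ) :
    Xi volume (blk s ℓ j) (W (HH a μ)) = Xi volume (box ℓ) (W (HH a μ)) := by
  rw [← Xi_map (measurePreserving_add_right volume (vec s j))
    (measurableEmbedding_addRight _), preimage_blk]
  simp_rw [W_map]

lemma blk_sep {s ℓ : ℝ} (hs : 0 ≤ s) {j j' : Fin 3 → ℕ} (h : j ≠ j') {x y : V3}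
    (hx : x ∈ blk s ℓ j) (hy : y ∈ blk s ℓ j') : ∃ k, s - ℓ ≤ |x k - y k| := by
  obtain ⟨k, hk⟩ := Function.ne_iff.1 h
  refine ⟨k, ?_⟩
  have h1 := hx k
  have h2 := hy k
  rcases lt_or_gt_of_ne hk with h3 | h3
  · have : (j k : ℝ) + 1 ≤ j' k := by exact_mod_cast h3
    have := mul_le_mul_of_nonneg_left this hs
    exact le_abs.2 (Or.inr (by linarith [h1.2, h2.1]))
  · have : (j' k : ℝ) + 1 ≤ j k := by exact_mod_cast h3
    have := mul_le_mul_of_nonneg_left this hs
    exact le_abs.2 (Or.inl (by linarith [h1.1, h2.2]))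

lemma blk_dist {s ℓ : ℝ} (hs : 0 ≤ s) {j j' : Fin 3 → ℕ} (h : j ≠ j') {x y : V3}
    (hx : x ∈ blk s ℓ j) (hy : y ∈ blk s ℓ j') : s - ℓ ≤ dist x y := by
  obtain ⟨k, hk⟩ := blk_sep hs h hx hy
  exact hk.trans (coord_le_dist x y k)

lemma blk_disj {s ℓ : ℝ} (hs : 0 ≤ s) (h : ℓ < s) (T : Finset (Fin 3 → ℕ)) :
    (T : Set (Fin 3 → ℕ)).PairwiseDisjoint (blk s ℓ) := by
  intro j _ j' _ hj
  refine Set.disjoint_left.2 fun x hx hy => ?_
  have := blk_dist hs hj hx hy
  simp at this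
  linarith

lemma blk_sub {s ℓ L : ℝ} (hs : 0 ≤ s) (h : ℓ ≤ s) {n : ℕ} (hL : n * s ≤ L) :
    (⋃ j ∈ J n, blk s ℓ j) ⊆ box L := by
  intro x hx
  simp only [Set.mem_iUnion] at hx
  obtain ⟨j, hj, hx⟩ := hx
  intro k
  have h1 := hx k
  have h2 : j k < n := by simpa using Fintype.mem_piFinset.1 hj k
  have h3 : (j k : ℝ) + 1 ≤ n := by exact_mod_cast h2
  have := mul_le_mul_of_nonneg_left h3 hs
  have h4 : 0 ≤ s * j k := by positivity
  constructor <;> linarith [h1.1, h1.2]

open Classical in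
lemma sum_parts {ι : Type} {Λ : ι → Set V3} {T : Finset ι} (hd : (T : Set ι).PairwiseDisjoint Λ)
    {A : Finset V3} (hA : ∀ x ∈ A, x ∈ ⋃ i ∈ T, Λ i) (f : V3 → ℝ) :
    ∑ i ∈ T, ∑ x ∈ A.filter (· ∈ Λ i), f x = ∑ x ∈ A, f x := by
  simp_rw [Finset.sum_filter]
  rw [Finset.sum_comm]
  refine Finset.sum_congr rfl fun x hx => ?_
  obtain ⟨i, hi, hxi⟩ := Set.mem_iUnion₂.1 (hA x hx)
  rw [Finset.sum_eq_single i]
  · simp [hxi]
  · intro j hj hji
    rw [if_neg]
    exact fun h => Set.disjoint_left.1 (hd hj hi hji) h hxi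
  · intro h; exact absurd hi h

open Classical in
lemma card_parts {ι : Type} {Λ : ι → Set V3} {T : Finset ι} (hd : (T : Set ι).PairwiseDisjoint Λ)
    {A : Finset V3} (hA : ∀ x ∈ A, x ∈ ⋃ i ∈ T, Λ i) :
    ∑ i ∈ T, ((A.filter (· ∈ Λ i)).card : ℝ) = A.card := by
  have := sum_parts hd hA fun _ => 1
  simpa using this

open Classical in
lemma diag_parts {ι : Type} {Λ : ι → Set V3} {T : Finset ι} (hd : (T : Set ι).PairwiseDisjoint Λ)
    {A : Finset V3} (hA : ∀ x ∈ A, x ∈ ⋃ i ∈ T, Λ i) (w : V3 → V3 → ℝ)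
    (hw : ∀ i ∈ T, ∀ j ∈ T, i ≠ j → ∀ x ∈ Λ i, ∀ y ∈ Λ j, 0 ≤ w x y) :
    ∑ i ∈ T, ∑ x ∈ A.filter (· ∈ Λ i), ∑ y ∈ A.filter (· ∈ Λ i), w x y ≤
      ∑ x ∈ A, ∑ y ∈ A, w x y := by
  rw [← sum_parts hd hA]
  refine Finset.sum_le_sum fun i hi => Finset.sum_le_sum fun x hx => ?_
  refine Finset.sum_le_sum_of_subset_of_nonneg (Finset.filter_subset _ _) fun y hy hy' => ?_
  obtain ⟨j, hj, hyj⟩ := Set.mem_iUnion₂.1 (hA y hy)
  refine hw i hi j hj ?_ x (Finset.mem_filter.1 hx).2 y hyj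
  rintro rfl
  exact hy' (Finset.mem_filter.2 ⟨hy, hyj⟩)

open Classical in
lemma toFinset_filter' (l : List V3) (Λ : Set V3) :
    (l.filter (· ∈ Λ)).toFinset = l.toFinset.filter (· ∈ Λ) := by
  ext x; simp

open Classical in
lemma nodup_of_filters {ι : Type} {Λ : ι → Set V3} {T : Finset ι} {l : List V3}
    (hl : ∀ x ∈ l, x ∈ ⋃ i ∈ T, Λ i) (h : ∀ i ∈ T, (l.filter (· ∈ Λ i)).Nodup) : l.Nodup := by
  rw [List.nodup_iff_count_le_one]
  intro x
  by_cases hx : x ∈ l
  · obtain ⟨i, hi, hxi⟩ := Set.mem_iUnion₂.1 (hl x hx)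
    have := List.nodup_iff_count_le_one.1 (h i hi) x
    rwa [List.count_filter (by simpa using hxi)] at this
  · simp [List.count_eq_zero_of_not_mem hx]

lemma prod_ofReal_exp {ι : Type} (T : Finset ι) (f : ι → ℝ) :
    ∏ i ∈ T, ENNReal.ofReal (Real.exp (f i)) = ENNReal.ofReal (Real.exp (∑ i ∈ T, f i)) := by
  rw [Real.exp_sum, ENNReal.ofReal_prod_of_nonneg fun i _ => (Real.exp_pos _).le]

lemma ofReal_exp_add (x y : ℝ) : ENNReal.ofReal (Real.exp (x + y)) =
    ENNReal.ofReal (Real.exp x) * ENNReal.ofReal (Real.exp y) := by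
  rw [Real.exp_add, ENNReal.ofReal_mul (Real.exp_pos _).le]

lemma ofReal_exp_le {x y : ℝ} (h : x ≤ y) :
    ENNReal.ofReal (Real.exp x) ≤ ENNReal.ofReal (Real.exp y) :=
  ENNReal.ofReal_le_ofReal (Real.exp_le_exp.2 h)

lemma W_of_nodup (H : Finset V3 → ℝ) {l : List V3} (h : l.Nodup) :
    W H l = ENNReal.ofReal (Real.exp (H l.toFinset)) := if_pos h

lemma W_of_not_nodup (H : Finset V3 → ℝ) {l : List V3} (h : ¬ l.Nodup) : W H l = 0 := if_neg h

end Vale.Agent.P171
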