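import Mathlib

/-! Classical particles in three-space with a radial pair potential. -/

open MeasureTheory

namespace Vale.Agent.P171

/-- Euclidean three-space. -/
abbrev R3 := EuclideanSpace ℝ (Fin 3)

/-- The energy `U_N (x) = ∑_{i<j} φ (|x_i - x_j|)`. -/
noncomputable def energy (φ : ℝ → ℝ) {N : ℕ} (x : Fin N → R3) : ℝ :=
  ∑ i : Fin N, ∑ j : Fin N with i < j, φ (dist (x i) (x j))

/-- Locally bounded on `(0, ∞)`. -/
def LocallyBdd (φ : ℝ → ℝ) : Prop :=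
  ∀ a b : ℝ, 0 < a → ∃ M : ℝ, ∀ r ∈ Set.Icc a b, |φ r| ≤ M

/-- Stability: `U_N ≥ - B N` for all configurations of distinct points. -/
def Stable (φ : ℝ → ℝ) : Prop :=
  ∃ B : ℝ, ∀ (N : ℕ) (x : Fin N → R3), Function.Injective x → -B * (N : ℝ) ≤ energy φ x

/-- Temperedness: `φ r ≤ C r ^ (-3 - ε)` for `r ≥ R₀`. -/
def Tempered (φ : ℝ → ℝ) : Prop :=
  ∃ C ε R₀ : ℝ, 0 < C ∧ 0 < ε ∧ 0 < R₀ ∧ ∀ r : ℝ, R₀ ≤ r → φ r ≤ C * r ^ (-3 - ε)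

/-- Two-sided integrable tail: `|φ r| ≤ ψ r` for `r ≥ 1`, with `ψ` non-increasing and
`∫_1^∞ ψ r r² dr < ∞`. -/
def IntegrableTail (φ : ℝ → ℝ) : Prop :=
  ∃ ψ : ℝ → ℝ, AntitoneOn ψ (Set.Ici 1) ∧ IntegrableOn (fun r => ψ r * r ^ 2) (Set.Ici 1) ∧
    ∀ r : ℝ, 1 ≤ r → |φ r| ≤ ψ r

/-- The cube `[0, L]³`. -/
def cube (L : ℝ) : Set R3 := {p | ∀ k, p k ∈ Set.Icc 0 L}

/-- The configuration space `([0, L]³)^N`. -/
def confs (L : ℝ) (N : ℕ) : Set (Fin N → R3) := {x | ∀ i, x i ∈ cube L}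

/-- The Boltzmann factor `exp (- β U_N)`. -/
noncomputable def boltz (φ : ℝ → ℝ) (β : ℝ) (N : ℕ) (x : Fin N → R3) : ℝ :=
  Real.exp (-β * energy φ x)

/-- The canonical partition function `Z_{L,N}(β)`. -/
noncomputable def canonicalZ (φ : ℝ → ℝ) (β L : ℝ) (N : ℕ) : ℝ :=
  1 / (N.factorial : ℝ) * ∫ x in confs L N, boltz φ β N x

/-- The grand canonical partition function `∑_N z^N Z_{L,N}(β)`. -/
noncomputable def grandZ (φ : ℝ → ℝ) (β z L : ℝ) : ℝ :=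
  ∑' N : ℕ, z ^ N * canonicalZ φ β L N

end Vale.Agent.P171
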