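import Vale.Agent.P171.Pressure

/-! The mean-field upper bound of Lebowitz-Penrose type. -/

open MeasureTheory Finset Filter Topology
open scoped ENNReal

namespace Vale.Agent.P171

/-- The part of `a` on ranges at least `w`. -/
noncomputable def tail (a : ℕ → ℝ) (w : ℕ) : ℕ → ℝ := fun k => if w ≤ Rk k then a k else 0

lemma Adm.adm_tail {a : ℕ → ℝ} (ha : Adm a) (w : ℕ) : Adm (tail a w) := by
  have h0 : ∀ k, 0 ≤ tail a w k := fun k => by
    unfold tail; split_ifs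
    · exact ha.nonneg k
    · exact le_rfl
  refine ⟨h0, Summable.of_nonneg_of_le h0 (fun k => ?_) ha.summable⟩
  unfold tail; split_ifs
  · exact le_rfl
  · exact ha.nonneg k

lemma gg_tail (a : ℕ → ℝ) (w : ℕ) {r : ℝ} (hr : (w : ℝ) ≤ r) : gg (tail a w) r = gg a r := by
  unfold gg
  refine tsum_congr fun k => ?_
  unfold tail
  split_ifs with h
  · rfl
  · have h1 : (Rk k : ℝ) < w := by exact_mod_cast not_le.1 h
    have : psi k r = 0 := by
      unfold psi; rw [if_neg]; rintro ⟨-, h2⟩; linarith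
    simp [this]

lemma Adm.tail_small {a : ℕ → ℝ} (ha : Adm a) {δ : ℝ} (hδ : 0 < δ) :
    ∃ w : ℕ, 1 ≤ w ∧ ∑' k, tail a w k ≤ δ := by
  obtain ⟨K, hK⟩ := ((tendsto_sum_nat_add a).eventually (ge_mem_nhds hδ)).exists
  refine ⟨8 * K + 1, by omega, le_trans ?_ hK⟩
  have ht := ha.adm_tail (8 * K + 1)
  rw [← ht.summable.sum_add_tsum_nat_add K]
  have h0 : ∑ i ∈ range K, tail a (8 * K + 1) i = 0 := by
    refine Finset.sum_eq_zero fun i hi => ?_
    have := Finset.mem_range.1 hi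
    unfold tail Rk
    rw [if_neg (by omega)]
  rw [h0, zero_add]
  refine ((summable_nat_add_iff K).2 ht.summable).tsum_le_tsum (fun i => ?_)
    ((summable_nat_add_iff K).2 ha.summable)
  unfold tail; split_ifs
  · exact le_rfl
  · exact ha.nonneg _

lemma cell_blk {p ℓ : ℝ} (hp : 0 < p) (h : ℓ < p) {j : Fin 3 → ℕ} {x : V3} (hx : x ∈ blk p ℓ j)
    (k : Fin 3) : cell p x k = j k := by
  have h1 := hx k
  unfold cell
  rw [Int.floor_eq_iff]
  push_cast
  rw [le_div_iff₀ hp, div_lt_iff₀ hp]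
  constructor <;> linarith [h1.1, h1.2]

lemma S_le_sq (s : ℝ) (A : Finset V3) : S s A ≤ (A.card : ℝ) ^ 2 := by
  calc S s A ≤ ∑ x ∈ A, ∑ y ∈ A, (1 : ℝ) :=
        Finset.sum_le_sum fun x _ => Finset.sum_le_sum fun y _ => by split_ifs <;> norm_num
    _ = _ := by simp [sq]

lemma Q_union (K : ℝ → ℝ) {C D : Finset V3} (h : Disjoint C D) :
    Q K (C ∪ D) (C ∪ D) = Q K C C + Q K C D + Q K D C + Q K D D := by
  unfold Q
  simp only [Finset.sum_union h, Finset.sum_add_distrib]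
  ring

lemma Q_nonneg {K : ℝ → ℝ} (hK : ∀ r, 0 ≤ K r) (A B : Finset V3) : 0 ≤ Q K A B :=
  Finset.sum_nonneg fun _ _ => Finset.sum_nonneg fun _ _ => hK _

open Classical in
lemma cores_split {a : ℕ → ℝ} (ha : Adm a) (μ : ℝ) {t : ℝ} (ht : 0 ≤ t) (k w n : ℕ) (hw : 1 ≤ w)
    (u : ℝ) (hu : 0 ≤ u) {C : Finset V3}
    (hC : ∀ x ∈ C, x ∈ ⋃ j ∈ J n, blk (Rk k) (Rk k - w) j) :
    HH (a + Pi.single k t) μ C + u * S 1 C ≤
      ∑ j ∈ J n, (HH a μ (C.filter (· ∈ blk (Rk k) (Rk k - w) j)) +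
        (27 * (∑' i, tail a w i) / 2 + u) * S 1 (C.filter (· ∈ blk (Rk k) (Rk k - w) j)) +
        27 * t / (2 * (Rk k : ℝ) ^ 3) *
          ((C.filter (· ∈ blk (Rk k) (Rk k - w) j)).card : ℝ) ^ 2) := by
  set p : ℝ := (Rk k : ℝ) with hp
  have hp1 : 1 ≤ p := Rk_pos k
  have hw' : (1 : ℝ) ≤ w := by exact_mod_cast hw
  have hd := blk_disj (s := p) (ℓ := p - w) (by linarith) (by linarith) (J n)
  have hτ := (ha.adm_tail w).mass_nonneg
  set τ := ∑' i, tail a w i
  have h1 := diag_parts hd hC (fun x y => phi a (dist x y) + gg (tail a w) (dist x y))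
    fun i _ j _ hij x hx y hy => by
      have := blk_dist (by linarith) hij hx hy
      rw [gg_tail a w (by linarith), phi, phi0_of_one_le (by linarith)]
      simp
  have h2 := diag_parts hd hC (fun x y => -(if cell 1 x = cell 1 y then (1 : ℝ) else 0))
    fun i _ j _ hij x hx y hy => by
      obtain ⟨m, hm⟩ := blk_sep (by linarith) hij hx hy
      rw [if_neg]
      · simp
      · intro hc
        have := same_cell one_pos hc m
        linarith
  have h3 := diag_parts hd hC (fun x y => -(if cell p x = cell p y then (1 : ℝ) else 0))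
    fun i _ j _ hij x hx y hy => by
      rw [if_neg]
      · simp
      · intro hc
        refine hij (funext fun m => ?_)
        have := congrFun hc m
        rw [cell_blk (by linarith) (by linarith) hx, cell_blk (by linarith) (by linarith) hy] at this
        exact_mod_cast this
  have h4 := card_parts hd hC
  simp only [Finset.sum_neg_distrib, neg_le_neg_iff] at h2 h3
  simp only [Finset.sum_add_distrib] at h1
  change ∑ j ∈ J n, Q (phi a) _ _ + ∑ j ∈ J n, Q (gg (tail a w)) _ _ ≤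
    Q (phi a) C C + Q (gg (tail a w)) C C at h1
  change S 1 C ≤ ∑ j ∈ J n, S 1 _ at h2
  change S p C ≤ ∑ j ∈ J n, S p _ at h3
  have h5 : 0 ≤ ∑ j ∈ J n, Q (gg (tail a w)) (C.filter (· ∈ blk p (p - w) j))
      (C.filter (· ∈ blk p (p - w) j)) :=
    Finset.sum_nonneg fun j _ => Q_nonneg (ha.adm_tail w).gg_nonneg _ _
  have h6 := (ha.adm_tail w).Q_gg_le C C one_pos
  have h7 := Q_psi_le_cell k (s := p) (by linarith) (r := 1) (by simp [hp]) le_rfl C C one_pos
  have h8 : S p C ≤ ∑ j ∈ J n, ((C.filter (· ∈ blk p (p - w) j)).card : ℝ) ^ 2 :=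
    h3.trans (Finset.sum_le_sum fun j _ => S_le_sq _ _)
  have h9 : Q (phi (a + Pi.single k t)) C C = Q (phi a) C C - t * Q (psi k) C C := by
    simp only [Q, phi, ha.gg_add (adm_single k ht), gg_single, Finset.mul_sum,
      ← Finset.sum_sub_distrib]
    refine Finset.sum_congr rfl fun x _ => Finset.sum_congr rfl fun y _ => by ring
  simp only [HH, Finset.sum_add_distrib, ← Finset.mul_sum, h4, h9]
  set N2 := ∑ j ∈ J n, ((C.filter (· ∈ blk p (p - w) j)).card : ℝ) ^ 2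
  set S1 := ∑ j ∈ J n, S 1 (C.filter (· ∈ blk p (p - w) j))
  have h10 : t * Q (psi k) C C ≤ t * (27 / p ^ 3 * N2) := by
    refine mul_le_mul_of_nonneg_left (h7.trans ?_) ht
    gcongr
    linarith
  have h11 : (27 * τ / 2 + u) * S 1 C ≤ (27 * τ / 2 + u) * S1 := by gcongr
  have h12 : 27 * t / (2 * p ^ 3) * N2 = 1 / 2 * (t * (27 / p ^ 3 * N2)) := by
    field_simp
  rw [h12]
  nlinarith

lemma shell_split {a : ℕ → ℝ} (ha : Adm a) (μ : ℝ) {lam : ℝ} (hl : 0 < lam) {C D : Finset V3}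
    (h : Disjoint C D) :
    HH a μ (C ∪ D) ≤ HH a μ C + 27 * (∑' i, a i) / (2 * lam) * S 1 C +
      (-(1 / 2) * Q phi0 D D + 27 * (∑' i, a i) * (lam + 1) / 2 * S 1 D + μ * D.card) := by
  have h1 := ha.Q_gg_le C D (inv_pos.2 hl)
  have h2 := ha.Q_gg_le D C hl
  have h3 := ha.Q_gg_le D D one_pos
  have h4 := Q_nonneg phi0_nonneg C D
  have h5 := Q_nonneg phi0_nonneg D C
  simp only [HH, Q_union _ h, Finset.card_union_of_disjoint h]
  rw [Q_phi a C D, Q_phi a D C, Q_phi a D D]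
  push_cast
  have e1 : (∑' k, a k) * (27 * ((lam⁻¹ * S 1 C + S 1 D / lam⁻¹) / 2)) =
      27 * (∑' i, a i) / (2 * lam) * S 1 C + 27 * (∑' i, a i) * lam / 2 * S 1 D := by
    field_simp
  have e2 : (∑' k, a k) * (27 * ((lam * S 1 D + S 1 C / lam) / 2)) =
      27 * (∑' i, a i) / (2 * lam) * S 1 C + 27 * (∑' i, a i) * lam / 2 * S 1 D := by
    field_simp; ring
  rw [e1] at h1
  rw [e2] at h2
  nlinarith

/-- Majorant for the weight inside one core. -/
noncomputable def coreF (a : ℕ → ℝ) (μ h c1 c2 c3 C : ℝ) (l : List V3) : ℝ≥0∞ :=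
  ENNReal.ofReal (Real.exp c1) * W (HH a μ) l + ENNReal.ofReal (Real.exp c2) * W (HH a (μ + h)) l +
    ENNReal.ofReal (Real.exp c3) * ENNReal.ofReal (Real.exp (C * l.length))

lemma meas_exp_len (C : ℝ) : Meas fun l : List V3 => ENNReal.ofReal (Real.exp (C * l.length)) :=
  Meas.len fun n => ENNReal.ofReal (Real.exp (C * n))

lemma Adm.meas_coreF {a : ℕ → ℝ} (ha : Adm a) (μ h c1 c2 c3 C : ℝ) :
    Meas (coreF a μ h c1 c2 c3 C) :=
  (((Meas.const _).mul (ha.meas_W μ)).add ((Meas.const _).mul (ha.meas_W _))).add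
    ((Meas.const _).mul (meas_exp_len C))

lemma core_pointwise {a : ℕ → ℝ} {μ h x t θ C M : ℝ} {p : ℕ} (hp : 1 ≤ p) (hh : 0 < h)
    (ht : 0 ≤ t) (ht1 : 729 * t ≤ 1) (ht2 : 27 * t * M ^ 2 ≤ 2 * (h * x))
    (hθ : 0 ≤ θ) (hθ1 : θ ≤ 1) (hC : ∀ A : Finset V3, HH a μ A + 3 * S 1 A ≤ C * A.card)
    {l : List V3} (hl : l.Nodup) (hb : ∀ y ∈ l, ∀ z ∈ l, ∀ k, |y k - z k| ≤ p) :
    ENNReal.ofReal (Real.exp (HH a μ l.toFinset + θ * S 1 l.toFinset +
      27 * t / (2 * (p : ℝ) ^ 3) * (l.toFinset.card : ℝ) ^ 2)) ≤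
    coreF a μ h ((54 * t * x ^ 2 + θ * M) * (p : ℝ) ^ 3) ((θ * M - h * x) * (p : ℝ) ^ 3)
      (-(M * (p : ℝ) ^ 3)) C l := by
  unfold coreF
  rw [W_of_nodup _ hl, W_of_nodup _ hl, ← List.toFinset_card_of_nodup hl,
    ← ofReal_exp_add, ← ofReal_exp_add, ← ofReal_exp_add]
  set A := l.toFinset
  have hp' : (1 : ℝ) ≤ p := by exact_mod_cast hp
  set V : ℝ := (p : ℝ) ^ 3 with hV
  have hV0 : 0 < V := by positivity
  set N : ℝ := (A.card : ℝ) with hN
  have hN0 : 0 ≤ N := Nat.cast_nonneg _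
  have hS := S_nonneg 1 A
  have hNS : N ≤ S 1 A := card_le_S 1 A
  have e : ∀ y : ℝ, 27 * t / (2 * V) * (y * V) ^ 2 = 27 * t * y ^ 2 / 2 * V := by
    intro y; field_simp
  have hu : 0 ≤ 27 * t / (2 * V) := by positivity
  by_cases hc : S 1 A ≤ M * V
  · have h1 := mul_le_mul_of_nonneg_left hc hθ
    by_cases hc2 : N ≤ 2 * x * V
    · refine le_trans (ofReal_exp_le ?_) (le_self_add.trans le_self_add)
      have h2 : 27 * t / (2 * V) * N ^ 2 ≤ 27 * t / (2 * V) * (2 * x * V) ^ 2 := by gcongr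
      rw [e] at h2
      linarith
    · refine le_trans (ofReal_exp_le ?_) (le_add_self.trans le_self_add)
      have h0 : N ≤ M * V := hNS.trans hc
      have h2 : 27 * t / (2 * V) * N ^ 2 ≤ 27 * t / (2 * V) * (M * V) ^ 2 := by gcongr
      rw [e] at h2
      have h3 : HH a (μ + h) A = HH a μ A + h * N := by unfold HH; ring
      have h4 := mul_le_mul_of_nonneg_left (not_le.1 hc2).le hh.le
      have h5 := mul_le_mul_of_nonneg_right ht2 hV0.le
      rw [h3]
      linarith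
  · refine le_trans (ofReal_exp_le ?_) le_add_self
    have h1 := mul_le_mul_of_nonneg_right hθ1 hS
    have h2 := card_sq_le_S hp A fun y hy z hz =>
      hb y (List.mem_toFinset.1 hy) z (List.mem_toFinset.1 hz)
    have h3 : 27 * t / (2 * V) * N ^ 2 ≤ 27 * t / (2 * V) * (27 * V * S 1 A) := by gcongr
    have e2 : 27 * t / (2 * V) * (27 * V * S 1 A) = 729 * t / 2 * S 1 A := by
      field_simp; ring
    rw [e2] at h3
    have h4 := hC A
    have h5 := mul_le_mul_of_nonneg_right ht1 hS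
    linarith

lemma core_bound {a : ℕ → ℝ} (ha : Adm a) {μ h x t θ C p ℓ : ℝ} (hℓ : 0 ≤ ℓ) (hp : ℓ + 1 ≤ p)
    (ht : 0 ≤ t) (hθ : 0 ≤ θ) (hP : PP a (μ + h) ≤ PP a μ + h * x) (j : Fin 3 → ℕ) :
    Xi volume (blk p ℓ j) (coreF a μ h ((54 * t * x ^ 2 + θ * Real.exp C) * p ^ 3)
      ((θ * Real.exp C - h * x) * p ^ 3) (-(Real.exp C * p ^ 3)) C) ≤
      ENNReal.ofReal (Real.exp (Real.log 3 +
        (PP a μ + 54 * t * x ^ 2 + θ * Real.exp C) * p ^ 3)) := by
  set M := Real.exp C with hM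
  have hM0 : 0 < M := Real.exp_pos _
  have hp0 : 0 < p := by linarith
  unfold coreF
  rw [Xi_add _ (((Meas.const _).mul (ha.meas_W μ)).add ((Meas.const _).mul (ha.meas_W _)))
      ((Meas.const _).mul (meas_exp_len C)),
    Xi_add _ ((Meas.const _).mul (ha.meas_W μ)) ((Meas.const _).mul (ha.meas_W _)),
    Xi_const_mul _ _ (ha.meas_W _), Xi_const_mul _ _ (ha.meas_W _),
    Xi_const_mul _ _ (meas_exp_len C), Xi_blk, Xi_blk]
  have e1 : Xi volume (box ℓ) (W (HH a μ)) = _ := ha.ZZ_eq μ hℓ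
  have e2 : Xi volume (box ℓ) (W (HH a (μ + h))) = _ := ha.ZZ_eq (μ + h) hℓ
  have h3 := Xi_ideal (ν := volume) (by positivity) (volume_blk p hℓ j).le C
  have h4 : (ℓ + 1) ^ 3 ≤ p ^ 3 := by gcongr
  have h5 : ℓ ^ 3 ≤ p ^ 3 := by gcongr; linarith
  have hP0 := ha.PP_nonneg μ
  have h6 : ff a μ ℓ ≤ PP a μ * p ^ 3 :=
    (ha.ff_le_PP μ hℓ).trans (mul_le_mul_of_nonneg_left h4 hP0)
  have h7 : ff a (μ + h) ℓ ≤ (PP a μ + h * x) * p ^ 3 :=
    ((ha.ff_le_PP _ hℓ).trans (mul_le_mul_of_nonneg_left h4 (ha.PP_nonneg _))).trans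
      (mul_le_mul_of_nonneg_right hP (by positivity))
  rw [e1, e2, ← ofReal_exp_add, ← ofReal_exp_add, ofReal_exp_add (Real.log 3),
    Real.exp_log three_pos]
  set B := ENNReal.ofReal (Real.exp ((PP a μ + 54 * t * x ^ 2 + θ * M) * p ^ 3))
  have e3 : ENNReal.ofReal 3 * B = B + B + B := by
    rw [ENNReal.ofReal_ofNat]; ring
  rw [e3]
  have hq : 0 ≤ 54 * t * x ^ 2 * p ^ 3 := by positivity
  refine add_le_add (add_le_add (ofReal_exp_le (by linarith)) (ofReal_exp_le (by linarith))) ?_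
  refine (mul_le_mul_right h3 _).trans ?_
  rw [← ofReal_exp_add]
  refine ofReal_exp_le ?_
  have h8 : 0 ≤ (PP a μ + 54 * t * x ^ 2 + θ * M) * p ^ 3 := by positivity
  have h9 := mul_le_mul_of_nonneg_left h5 hM0.le
  linarith

lemma volume_shell {p ℓ : ℝ} (hℓ : 0 ≤ ℓ) (h : ℓ < p) (n : ℕ) :
    volume (box (n * p) \ ⋃ j ∈ J n, blk p ℓ j) ≤
      ENNReal.ofReal ((n * p) ^ 3 - n ^ 3 * ℓ ^ 3) := by
  have hp : 0 ≤ p := by linarith
  have hU : volume (⋃ j ∈ J n, blk p ℓ j) = ENNReal.ofReal (n ^ 3 * ℓ ^ 3) := by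
    rw [measure_biUnion_finset (blk_disj hp h _) fun j _ => measurableSet_blk _ _ j]
    simp only [volume_blk p hℓ, Finset.sum_const, card_J, nsmul_eq_mul]
    rw [ENNReal.ofReal_mul (by positivity), ← Nat.cast_pow, ENNReal.ofReal_natCast]
  rw [measure_sdiff (blk_sub hp h.le le_rfl)
    ((J n).measurableSet_biUnion fun j _ => measurableSet_blk _ _ j).nullMeasurableSet
    (by rw [hU]; exact ENNReal.ofReal_ne_top), hU, volume_box (by positivity),
    ENNReal.ofReal_sub _ (by positivity)]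

open Classical in
lemma LP_box {a : ℕ → ℝ} (ha : Adm a) {μ h x t lam C CD : ℝ} {k w : ℕ} (hh : 0 < h)
    (ht : 0 ≤ t) (ht1 : 729 * t ≤ 1) (ht2 : 27 * t * Real.exp C ^ 2 ≤ 2 * (h * x))
    (hw : 1 ≤ w) (hk : w ≤ Rk k) (hl : 0 < lam)
    (hθ1 : 27 * (∑' i, tail a w i) / 2 + 27 * ((∑' i, a i) + t) / (2 * lam) ≤ 1)
    (hC : ∀ A : Finset V3, HH a μ A + 3 * S 1 A ≤ C * A.card)
    (hD : ∀ A : Finset V3, -(1 / 2) * Q phi0 A A +
      27 * ((∑' i, a i) + t) * (lam + 1) / 2 * S 1 A ≤ CD * A.card)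
    (hP : PP a (μ + h) ≤ PP a μ + h * x) (n : ℕ) :
    ff (a + Pi.single k t) μ (n * Rk k) ≤
      n ^ 3 * (Real.log 3 + (PP a μ + 54 * t * x ^ 2 +
        (27 * (∑' i, tail a w i) / 2 + 27 * ((∑' i, a i) + t) / (2 * lam)) * Real.exp C) *
          (Rk k : ℝ) ^ 3) +
        Real.exp (CD + μ) * ((n * Rk k : ℝ) ^ 3 - n ^ 3 * ((Rk k : ℝ) - w) ^ 3) := by
  have ha' : Adm (a + Pi.single k t) := ha.add (adm_single k ht)
  have hmass : ∑' i, (a + Pi.single k t : ℕ → ℝ) i = (∑' i, a i) + t :=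
    (ha.summable.hasSum.add (hasSum_pi_single k t)).tsum_eq
  have hτ := (ha.adm_tail w).mass_nonneg
  have hA0 := ha.mass_nonneg
  set θ := 27 * (∑' i, tail a w i) / 2 + 27 * ((∑' i, a i) + t) / (2 * lam) with hθd
  have hθ : 0 ≤ θ := by positivity
  set p : ℝ := (Rk k : ℝ) with hp
  have hp1 : 1 ≤ p := Rk_pos k
  have hw' : (1 : ℝ) ≤ w := by exact_mod_cast hw
  have hk' : (w : ℝ) ≤ p := by rw [hp]; exact_mod_cast hk
  have hd := blk_disj (s := p) (ℓ := p - w) (by linarith) (by linarith) (J n)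
  set U : Set V3 := ⋃ j ∈ J n, blk p (p - w) j with hU
  have hUm : MeasurableSet U := (J n).measurableSet_biUnion fun j _ => measurableSet_blk _ _ j
  have hsub : U ⊆ box (n * p) := blk_sub (by linarith) (by linarith) le_rfl
  set F := coreF a μ h ((54 * t * x ^ 2 + θ * Real.exp C) * p ^ 3)
      ((θ * Real.exp C - h * x) * p ^ 3) (-(Real.exp C * p ^ 3)) C with hF
  have hFm : Meas F := ha.meas_coreF _ _ _ _ _ _
  have e1 := Xi_prod (ν := volume) (blk p (p - w)) (measurableSet_blk _ _) (fun _ => F)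
    (fun _ => hFm) (J n) hd
  have e2 := Xi_union (ν := volume) hUm ((measurableSet_box (n * p)).diff hUm)
    Set.disjoint_sdiff_right
    (Meas.prod (J n) fun j _ => hFm.filter _ (measurableSet_blk p (p - w) j))
    (meas_exp_len (CD + μ))
  rw [Set.union_sdiff_cancel hsub, e1] at e2
  refine ha'.ff_le (by positivity) ?_
  have hle : ZZ (a + Pi.single k t) μ (n * p) ≤ _ := le_of_le_of_eq
    (Xi_mono (measurableSet_box _) fun l hl' => ?_) e2
  · refine hle.trans ?_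
    rw [ofReal_exp_add]
    refine mul_le_mul' ?_ (Xi_ideal ?_ (volume_shell (by linarith) (by linarith) n) _)
    · refine (Finset.prod_le_prod' fun j _ =>
        core_bound ha (by linarith) (by linarith) ht hθ hP j).trans (le_of_eq ?_)
      rw [prod_ofReal_exp, Finset.sum_const, card_J, nsmul_eq_mul, Nat.cast_pow]
    · have : (p - w) ^ 3 ≤ p ^ 3 := by gcongr <;> linarith
      have h2 : (0 : ℝ) ≤ n ^ 3 := by positivity
      nlinarith
  by_cases hn : l.Nodup
  swap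
  · rw [W_of_not_nodup _ hn]; exact zero_le
  rw [W_of_nodup _ hn]
  set lC := l.filter (· ∈ U) with hlC
  set lD := l.filter (· ∈ box (n * p) \ U) with hlD
  have hnC : lC.Nodup := hn.filter _
  have hnD : lD.Nodup := hn.filter _
  have hdis : Disjoint lC.toFinset lD.toFinset := by
    rw [Finset.disjoint_left]
    intro y h1 h2
    simp only [hlC, hlD, List.mem_toFinset, List.mem_filter, decide_eq_true_eq] at h1 h2
    exact h2.2.2 h1.2
  have hun : l.toFinset = lC.toFinset ∪ lD.toFinset := by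
    ext y
    simp only [hlC, hlD, List.mem_toFinset, List.mem_filter, decide_eq_true_eq, Finset.mem_union,
      Set.mem_sdiff]
    have := hl' y
    tauto
  have hCU : ∀ y ∈ lC.toFinset, y ∈ U := by
    intro y h1
    simp only [hlC, List.mem_toFinset, List.mem_filter, decide_eq_true_eq] at h1
    exact h1.2
  have h1 := shell_split ha' μ hl hdis
  rw [hmass, ← hun] at h1
  have h2 := cores_split ha μ ht k w n hw (27 * ((∑' i, a i) + t) / (2 * lam)) (by positivity) hCU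
  have h3 := hD lD.toFinset
  rw [List.toFinset_card_of_nodup hnD] at h1 h3
  refine le_trans (ofReal_exp_le (y := _ + (CD + μ) * lD.length)
    (le_trans ?_ (add_le_add_left h2 _))) ?_
  · linarith
  rw [ofReal_exp_add, ← prod_ofReal_exp]
  refine mul_le_mul_left (Finset.prod_le_prod' fun j _ => ?_) _
  rw [← toFinset_filter']
  refine core_pointwise (p := Rk k) (by unfold Rk; omega) hh ht ht1 ht2 hθ hθ1 hC
    (hnC.filter _) fun y hy z hz m => ?_
  simp only [List.mem_filter, decide_eq_true_eq] at hy hz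
  have b1 := hy.2 m
  have b2 := hz.2 m
  rw [abs_le]
  constructor <;> linarith [b1.1, b1.2, b2.1, b2.2]

lemma Adm.LP {a : ℕ → ℝ} (ha : Adm a) {μ h x : ℝ} (hh : 0 < h) (hx : 0 < x)
    (hP : PP a (μ + h) ≤ PP a μ + h * x) :
    ∃ t > 0, ∀ ε > 0, ∃ k, PP (a + Pi.single k t) μ ≤ PP a μ + 54 * t * x ^ 2 + ε := by
  obtain ⟨C, hC0, hC⟩ := superstable 3 (∑' k, a k) μ
  set M := Real.exp C with hM
  have hM1 : 1 ≤ M := Real.one_le_exp hC0
  set t := min (1 / 729) (2 * (h * x) / (27 * M ^ 2)) with htd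
  have ht : 0 < t := lt_min (by norm_num) (by positivity)
  have ht1 : 729 * t ≤ 1 := by have := min_le_left (1 / 729) (2 * (h * x) / (27 * M ^ 2)); linarith
  have ht2 : 27 * t * M ^ 2 ≤ 2 * (h * x) := by
    have := min_le_right (1 / 729) (2 * (h * x) / (27 * M ^ 2))
    rw [le_div_iff₀ (by positivity)] at this
    linarith
  refine ⟨t, ht, fun ε hε => ?_⟩
  set δ := min 1 (ε / 3) / M with hδ
  have hm : 0 < min 1 (ε / 3) := lt_min one_pos (by positivity)
  have hδ0 : 0 < δ := by positivity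
  have hδM : δ * M = min 1 (ε / 3) := by rw [hδ]; field_simp
  have hδ1 : δ ≤ 1 := by
    have := min_le_left 1 (ε / 3); nlinarith
  obtain ⟨w, hw, hτ⟩ := ha.tail_small (δ := δ / 27) (by positivity)
  have hA0 := ha.mass_nonneg
  set A := (∑' i, a i) + t with hA
  have hA1 : 0 < A := by positivity
  set lam := 27 * A / δ with hlam
  have hl : 0 < lam := by positivity
  have hθ : 27 * (∑' i, tail a w i) / 2 + 27 * A / (2 * lam) ≤ δ := by
    have : 27 * A / (2 * lam) = δ / 2 := by rw [hlam]; field_simp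
    linarith
  obtain ⟨CD, -, hD⟩ := superstable0 (27 * A * (lam + 1) / 2)
  have hR : Tendsto (fun k : ℕ => (Rk k : ℝ)) atTop atTop := by
    refine tendsto_natCast_atTop_atTop.comp (tendsto_atTop_mono (f := id) (fun k => ?_) tendsto_id)
    simp only [id, Rk]; omega
  have hinv := tendsto_inv_atTop_zero.comp hR
  have hlim : Tendsto (fun k : ℕ => Real.log 3 * ((Rk k : ℝ)⁻¹) ^ 3 +
      Real.exp (CD + μ) * (1 - (1 - w * (Rk k : ℝ)⁻¹) ^ 3)) atTop
      (𝓝 (Real.log 3 * 0 ^ 3 + Real.exp (CD + μ) * (1 - (1 - w * 0) ^ 3))) :=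
    ((hinv.pow 3).const_mul _).add
      (((((hinv.const_mul _).const_sub _).pow 3).const_sub _).const_mul _)
  simp only [ne_eq, OfNat.ofNat_ne_zero, not_false_eq_true, zero_pow, mul_zero, sub_zero, one_pow,
    sub_self, add_zero] at hlim
  obtain ⟨k, hk1, hk2⟩ := ((hlim.eventually (ge_mem_nhds (half_pos hε))).and
    (hR.eventually_ge_atTop w)).exists
  refine ⟨k, ?_⟩
  have hp1 := Rk_pos k
  have ha' : Adm (a + Pi.single k t) := ha.add (adm_single k ht.le)
  refine le_of_tendsto (ha'.tendsto_seq μ (p := Rk k) (by linarith)) ?_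
  filter_upwards [eventually_ge_atTop 1] with n hn
  have hn0 : (0 : ℝ) < n := by exact_mod_cast hn
  have h1 := LP_box ha hh ht.le ht1 ht2 hw (by exact_mod_cast hk2) hl (hθ.trans hδ1)
    (hC a ha le_rfl μ le_rfl) hD hP n
  rw [div_le_iff₀ (by positivity)]
  refine h1.trans ?_
  set θ := 27 * (∑' i, tail a w i) / 2 + 27 * A / (2 * lam)
  set p : ℝ := (Rk k : ℝ)
  have h2 : θ * M ≤ ε / 3 := by
    have := min_le_right 1 (ε / 3)
    nlinarith
  have e : (n : ℝ) ^ 3 * (Real.log 3 + (PP a μ + 54 * t * x ^ 2 + θ * M) * p ^ 3) +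
      Real.exp (CD + μ) * ((n * p) ^ 3 - n ^ 3 * (p - w) ^ 3) =
      (PP a μ + 54 * t * x ^ 2 + (θ * M + (Real.log 3 * (p⁻¹) ^ 3 +
        Real.exp (CD + μ) * (1 - (1 - w * p⁻¹) ^ 3)))) * (n * p) ^ 3 := by
    field_simp; ring
  rw [e]
  gcongr
  linarith

end Vale.Agent.P171
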