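import Vale.Agent.P171.Lower
import Vale.Agent.P171.LP

/-! The variational argument producing a kink of the pressure. -/

open Finset Filter Topology

namespace Vale.Agent.P171

/-- Admissible parameters. -/
abbrev Par := {p : (ℕ → ℝ) × ℝ // Adm p.1 ∧ p.2 ≤ 0}

def Par.le (p q : Par) : Prop := (∀ k, p.1.1 k ≤ q.1.1 k) ∧ q.1.2 ≤ p.1.2

noncomputable def GG (p : Par) : ℝ :=
  PP p.1.1 p.1.2 - 2 / 10 ^ 8 * p.1.2 - 1 / (16384 * 10 ^ 8) * ∑' k, p.1.1 k

lemma GG_lower (p : Par) :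
    1 / 10 ^ 8 * (-p.1.2) + 1 / (16384 * 10 ^ 8) * ∑' k, p.1.1 k ≤ GG p := by
  have h1 := p.2.1.PP_lower p.1.2
  have h2 := p.2.1.PP_nonneg p.1.2
  unfold GG
  linarith

lemma GG_nonneg (p : Par) : 0 ≤ GG p := by
  have h1 := GG_lower p
  have h2 := p.2.1.mass_nonneg
  have h3 := p.2.2
  linarith

lemma exists_step (p : Par) (n : ℕ) : ∃ q : Par, p.le q ∧ GG q ≤ GG p ∧
    ∀ y : Par, p.le y → GG q ≤ GG y + 1 / ((n : ℝ) + 1) := by
  have hrefl : p.le p := ⟨fun _ => le_rfl, le_rfl⟩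
  set s : Set ℝ := GG '' {y | p.le y} with hs
  have hne : s.Nonempty := ⟨_, p, hrefl, rfl⟩
  have hb : BddBelow s := ⟨0, by rintro _ ⟨y, -, rfl⟩; exact GG_nonneg y⟩
  have hε : (0 : ℝ) < 1 / ((n : ℝ) + 1) := by positivity
  obtain ⟨_, ⟨y, hy, rfl⟩, h⟩ := exists_lt_of_csInf_lt hne (lt_add_of_pos_right _ hε)
  have h2 : ∀ z : Par, p.le z → sInf s ≤ GG z := fun z hz => csInf_le hb ⟨z, hz, rfl⟩
  by_cases hc : GG y ≤ GG p
  · exact ⟨y, hy, hc, fun z hz => by linarith [h2 z hz]⟩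
  · exact ⟨p, hrefl, le_rfl, fun z hz => by linarith [h2 z hz]⟩

lemma exists_min : ∃ p : Par, ∀ y : Par, p.le y → GG p ≤ GG y := by
  choose next h1 h2 h3 using exists_step
  let x0 : Par := ⟨(0, 0), ⟨fun _ => le_rfl, summable_zero⟩, le_rfl⟩
  obtain ⟨x, hx0, hx⟩ : ∃ x : ℕ → Par, x 0 = x0 ∧ ∀ n, x (n + 1) = next (x n) n :=
    ⟨fun n => Nat.rec x0 (fun n p => next p n) n, rfl, fun _ => rfl⟩
  have hG : ∀ n, GG (x n) ≤ GG x0 := by
    intro n
    induction n with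
    | zero => rw [hx0]
    | succ n ih => rw [hx]; exact (h2 _ _).trans ih
  set B := 16384 * 10 ^ 8 * GG x0 with hB
  have hmass : ∀ n, ∑' k, (x n).1.1 k ≤ B := by
    intro n
    have h1 := GG_lower (x n)
    have h2 := (x n).2.2
    have h3 := hG n
    linarith
  have hmu : ∀ n, -B ≤ (x n).1.2 := by
    intro n
    have h1 := GG_lower (x n)
    have h2 := (x n).2.1.mass_nonneg
    have h3 := hG n
    have h4 := GG_nonneg x0
    linarith
  have hmon : ∀ k, Monotone fun n => (x n).1.1 k := fun k =>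
    monotone_nat_of_le_succ fun n => by rw [hx]; exact (h1 (x n) n).1 k
  have hant : Antitone fun n => (x n).1.2 := antitone_nat_of_succ_le fun n => by
    rw [hx]; exact (h1 (x n) n).2
  have hbd : ∀ k, BddAbove (Set.range fun n => (x n).1.1 k) := by
    intro k
    refine ⟨B, ?_⟩
    rintro _ ⟨n, rfl⟩
    exact ((x n).2.1.summable.le_tsum k fun j _ => (x n).2.1.nonneg j).trans (hmass n)
  have hbd2 : BddBelow (Set.range fun n => (x n).1.2) := ⟨-B, by rintro _ ⟨n, rfl⟩; exact hmu n⟩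
  set a : ℕ → ℝ := fun k => ⨆ n, (x n).1.1 k with ha
  set μ : ℝ := ⨅ n, (x n).1.2 with hμ
  have hta : ∀ k, Tendsto (fun n => (x n).1.1 k) atTop (𝓝 (a k)) := fun k =>
    tendsto_atTop_ciSup (hmon k) (hbd k)
  have htμ : Tendsto (fun n => (x n).1.2) atTop (𝓝 μ) := tendsto_atTop_ciInf hant hbd2
  have hle : ∀ n k, (x n).1.1 k ≤ a k := fun n k => le_ciSup (hbd k) n
  have hge : ∀ n, μ ≤ (x n).1.2 := fun n => ciInf_le hbd2 n
  have ha0 : ∀ k, 0 ≤ a k := fun k => ((x 0).2.1.nonneg k).trans (hle 0 k)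
  have hsum : Summable a := by
    refine summable_of_sum_range_le (c := B) ha0 fun K => ?_
    refine le_of_tendsto' (tendsto_finsetSum (range K) fun k _ => hta k) fun n => ?_
    exact ((x n).2.1.summable.sum_le_tsum _ fun j _ => (x n).2.1.nonneg j).trans (hmass n)
  have had : Adm a := ⟨ha0, hsum⟩
  have htm : Tendsto (fun n => ∑' k, (x n).1.1 k) atTop (𝓝 (∑' k, a k)) := by
    refine tendsto_tsum_of_dominated_convergence hsum hta (Eventually.of_forall fun n k => ?_)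
    rw [Real.norm_of_nonneg ((x n).2.1.nonneg k)]
    exact hle n k
  let p : Par := ⟨(a, μ), had, (hge 0).trans (x 0).2.2⟩
  refine ⟨p, fun y hy => ?_⟩
  obtain ⟨M, hM, hc⟩ := Adm.PP_cont B 0
  obtain ⟨r, hr, hra, hrm⟩ : ∃ r : ℕ → ℕ → ℝ, (∀ n, Adm (r n)) ∧ (∀ n, (x n).1.1 + r n = a) ∧
      ∀ n, ∑' k, r n k = ∑' k, a k - ∑' k, (x n).1.1 k :=
    ⟨fun n => a - (x n).1.1,
      fun n => ⟨fun k => sub_nonneg.2 (hle n k), hsum.sub (x n).2.1.summable⟩,
      fun n => add_sub_cancel _ _, fun n => hsum.tsum_sub (x n).2.1.summable⟩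
  have ht0 : Tendsto (fun n => 27 * (∑' k, a k - ∑' k, (x (n + 1)).1.1 k) / 2) atTop (𝓝 0) := by
    have := (((htm.comp (tendsto_add_atTop_nat 1)).const_sub (∑' k, a k)).const_mul 27).div_const 2
    simpa using this
  have ht1 : Tendsto (fun n : ℕ => GG y + 1 / ((n : ℝ) + 1) +
      27 * (∑' k, a k - ∑' k, (x (n + 1)).1.1 k) / 2 * M + 2 / 10 ^ 8 * ((x (n + 1)).1.2 - μ))
      atTop (𝓝 (GG y + 0 + 0 * M + 2 / 10 ^ 8 * (μ - μ))) :=
    ((tendsto_one_div_add_atTop_nhds_zero_nat.const_add _).add (ht0.mul_const M)).add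
      (((htμ.comp (tendsto_add_atTop_nat 1)).sub_const μ).const_mul _)
  simp only [add_zero, zero_mul, sub_self, mul_zero] at ht1
  refine ge_of_tendsto ht1 ?_
  filter_upwards [ht0.eventually (ge_mem_nhds one_pos)] with n hn
  have h4 := h3 (x n) n y ⟨fun k => (hle n k).trans (hy.1 k), hy.2.trans (hge n)⟩
  rw [← hx] at h4
  have h5 := hc (x (n + 1)).1.1 (r (n + 1)) (x (n + 1)).2.1 (hr (n + 1)) (hmass (n + 1))
    (by rw [hrm]; exact hn) (x (n + 1)).1.2 μ (hge (n + 1)) (x (n + 1)).2.2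
  rw [hra, hrm] at h5
  have h6 := (hr (n + 1)).mass_nonneg
  rw [hrm] at h6
  have e1 : GG p = PP a μ - 2 / 10 ^ 8 * μ - 1 / (16384 * 10 ^ 8) * ∑' k, a k := rfl
  unfold GG at h4
  rw [e1]
  unfold GG
  linarith

theorem exists_kink : ∃ a : ℕ → ℝ, Adm a ∧ ∃ μ : ℝ, ¬ DifferentiableAt ℝ (PP a) μ := by
  obtain ⟨⟨⟨a, μ⟩, ha, hμ⟩, hmin⟩ := exists_min
  refine ⟨a, ha, μ, fun hd => ?_⟩
  simp only at ha hμ
  have h1 : ∀ s, 0 ≤ s → PP a μ ≤ PP a (μ - s) + 2 / 10 ^ 8 * s := by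
    intro s hs
    have := hmin ⟨(a, μ - s), ha, by linarith⟩ ⟨fun _ => le_rfl, by simp [hs]⟩
    simp only [GG] at this
    linarith
  have h2 : ∀ k t, 0 ≤ t → PP a μ + 1 / (16384 * 10 ^ 8) * t ≤ PP (a + Pi.single k t) μ := by
    intro k t ht
    have hmass : ∑' i, (a + Pi.single k t : ℕ → ℝ) i = (∑' i, a i) + t :=
      (ha.summable.hasSum.add (hasSum_pi_single k t)).tsum_eq
    have := hmin ⟨(a + Pi.single k t, μ), ha.add (adm_single k ht), hμ⟩
      ⟨fun j => by simpa using (adm_single k ht).nonneg j, le_rfl⟩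
    simp only [GG, hmass] at this
    linarith
  have hs := hasDerivAt_iff_tendsto_slope_left_right.1 hd.hasDerivAt
  have h3 : deriv (PP a) μ ≤ 2 / 10 ^ 8 := by
    refine le_of_tendsto hs.1 ?_
    filter_upwards [self_mem_nhdsWithin] with y hy
    have hy' : y < μ := hy
    have := h1 (μ - y) (by linarith)
    rw [sub_sub_cancel] at this
    rw [slope_def_field, div_le_iff_of_neg (by linarith)]
    linarith
  have h4 : deriv (PP a) μ < 3 / 10 ^ 8 := h3.trans_lt (by norm_num)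
  obtain ⟨y, hy1, hy2⟩ := ((hs.2.eventually (gt_mem_nhds h4)).and self_mem_nhdsWithin).exists
  have hy' : μ < y := hy2
  rw [slope_def_field, div_lt_iff₀ (by linarith)] at hy1
  obtain ⟨t, ht, hLP⟩ := ha.LP (μ := μ) (h := y - μ) (x := 3 / 10 ^ 8) (by linarith) (by norm_num)
    (by rw [add_sub_cancel]; linarith)
  obtain ⟨k, hk⟩ := hLP (t / 10 ^ 14) (by positivity)
  have := h2 k t ht.le
  linarith

end Vale.Agent.P171
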