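import Vale.Agent.P171.Defs
import Vale.Agent.P171.Variational

/-! Identification with the standard partition functions. -/

open MeasureTheory Finset Filter Topology
open scoped ENNReal

namespace Vale.Agent.P171

lemma double_sum_eq (a : ℕ → ℝ) {N : ℕ} (x : Fin N → R3) :
    ∑ i, ∑ j, phi a (dist (x i) (x j)) = 2 * energy (phi a) x := by
  unfold energy
  have h1 : ∀ i j : Fin N, phi a (dist (x i) (x j)) =
      (if i < j then phi a (dist (x i) (x j)) else 0) +
        (if j < i then phi a (dist (x j) (x i)) else 0) := by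
    intro i j
    rcases lt_trichotomy i j with h | h | h
    · simp [h, h.not_gt]
    · simp [h, phi_zero]
    · simp [h, h.not_gt, dist_comm]
  rw [Finset.sum_congr rfl fun i _ => Finset.sum_congr rfl fun j _ => h1 i j]
  simp only [Finset.sum_add_distrib, Finset.sum_filter]
  rw [Finset.sum_comm (f := fun i j => if j < i then phi a (dist (x j) (x i)) else 0)]
  ring

lemma HH_energy (a : ℕ → ℝ) (μ : ℝ) {N : ℕ} {x : Fin N → R3} (hx : Function.Injective x) :
    HH a μ (List.ofFn x).toFinset = -energy (phi a) x + μ * N := by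
  rw [HH_ofFn a μ hx, double_sum_eq]; ring

lemma ae_injective (N : ℕ) : ∀ᵐ x : Fin N → R3, Function.Injective x := by
  have : ∀ i j : Fin N, ∀ᵐ x : Fin N → R3, x i = x j → i = j := by
    intro i j
    by_cases h : i = j
    · exact Eventually.of_forall fun _ _ => h
    · have h0 := Measure.addHaar_submodule (volume : Measure (Fin N → R3))
        (LinearMap.eqLocus (LinearMap.proj (R := ℝ) (φ := fun _ : Fin N => R3) i)
          (LinearMap.proj j)) (by
          intro ht
          obtain ⟨v, hv⟩ := exists_ne (0 : R3)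
          have : (Pi.single i v : Fin N → R3) ∈ LinearMap.eqLocus
              (LinearMap.proj (R := ℝ) (φ := fun _ : Fin N => R3) i) (LinearMap.proj j) := by
            rw [ht]; trivial
          rw [LinearMap.mem_eqLocus] at this
          simp [Ne.symm h, hv] at this)
      rw [ae_iff]
      convert h0 using 2
      ext x
      simp [LinearMap.mem_eqLocus, h]
  simp only [Function.Injective]
  exact ae_all_iff.2 fun i => ae_all_iff.2 fun j => this i j

lemma confs_eq (L : ℝ) (N : ℕ) : confs L N = Set.univ.pi fun _ : Fin N => box L := by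
  ext x; simp [confs, cube, box]

lemma Adm.measurable_boltz {a : ℕ → ℝ} (ha : Adm a) (N : ℕ) : Measurable (boltz (phi a) 1 N) := by
  have : boltz (phi a) 1 N = fun x => Real.exp (-(1 / 2) * ∑ i, ∑ j, phi a (dist (x i) (x j))) := by
    funext x; rw [double_sum_eq, boltz]; congr 1; ring
  rw [this]
  exact ((ha.measurable_sum N).const_mul _).exp

lemma Adm.I_eq {a : ℕ → ℝ} (ha : Adm a) (μ L : ℝ) (N : ℕ) :
    I volume (box L) N (W (HH a μ)) = ENNReal.ofReal (Real.exp μ ^ N) *
      ∫⁻ x in confs L N, ENNReal.ofReal (boltz (phi a) 1 N x) := by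
  rw [I_eq_pi _ _ (ha.meas_W μ), ← Measure.restrict_pi_pi, confs_eq,
    ← lintegral_const_mul _ (ha.measurable_boltz N).ennreal_ofReal]
  refine lintegral_congr_ae (ae_restrict_of_ae ?_)
  filter_upwards [ae_injective N] with x hx
  rw [W_of_nodup _ (List.nodup_ofFn.2 hx), HH_energy a μ hx, ← Real.exp_nat_mul, boltz,
    ← ofReal_exp_add]
  congr 2; ring

lemma Adm.term_ne_top {a : ℕ → ℝ} (ha : Adm a) (μ : ℝ) {L : ℝ} (hL : 0 ≤ L) (N : ℕ) :
    ((N.factorial : ℝ≥0∞))⁻¹ * I volume (box L) N (W (HH a μ)) ≠ ⊤ :=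
  ne_top_of_le_ne_top (ha.ZZ_ne_top μ hL) (ENNReal.le_tsum N)

lemma Adm.integrable_boltz {a : ℕ → ℝ} (ha : Adm a) {L : ℝ} (hL : 0 ≤ L) (N : ℕ) :
    IntegrableOn (boltz (phi a) 1 N) (confs L N) := by
  have h := ha.term_ne_top 0 hL N
  rw [ha.I_eq] at h
  refine (lintegral_ofReal_ne_top_iff_integrable (ha.measurable_boltz N).aestronglyMeasurable
    (Eventually.of_forall fun x => (Real.exp_pos _).le)).1 fun ht => h ?_
  rw [ht]
  simp

lemma Adm.term_eq {a : ℕ → ℝ} (ha : Adm a) (μ L : ℝ) (N : ℕ) :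
    (((N.factorial : ℝ≥0∞))⁻¹ * I volume (box L) N (W (HH a μ))).toReal =
      Real.exp μ ^ N * canonicalZ (phi a) 1 L N := by
  rw [ha.I_eq, canonicalZ, integral_eq_lintegral_of_nonneg_ae (f := boltz (phi a) 1 N)
    (Eventually.of_forall fun x => (Real.exp_pos _).le)
    (ha.measurable_boltz N).aestronglyMeasurable]
  simp only [ENNReal.toReal_mul, ENNReal.toReal_inv, ENNReal.toReal_natCast]
  rw [ENNReal.toReal_ofReal (by positivity)]
  ring

lemma Adm.grandZ_eq {a : ℕ → ℝ} (ha : Adm a) (μ : ℝ) {L : ℝ} (hL : 0 ≤ L) :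
    grandZ (phi a) 1 (Real.exp μ) L = (ZZ a μ L).toReal := by
  rw [ZZ, Xi, ENNReal.tsum_toReal_eq (ha.term_ne_top μ hL), grandZ]
  exact tsum_congr fun N => (ha.term_eq μ L N).symm

lemma Adm.summable_Z {a : ℕ → ℝ} (ha : Adm a) (μ : ℝ) {L : ℝ} (hL : 0 ≤ L) :
    Summable fun N : ℕ => Real.exp μ ^ N * canonicalZ (phi a) 1 L N := by
  have := ENNReal.summable_toReal (ha.ZZ_ne_top μ hL)
  simpa only [ha.term_eq] using this

lemma Adm.locallyBdd {a : ℕ → ℝ} (ha : Adm a) : LocallyBdd (phi a) := by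
  intro u v hu
  refine ⟨(u ^ 4)⁻¹ + ∑' k, a k, fun r hr => ?_⟩
  have h1 := phi0_nonneg r
  have h2 := ha.gg_nonneg r
  have h3 := ha.gg_le r
  have h4 : phi0 r ≤ (u ^ 4)⁻¹ := by
    unfold phi0
    split_ifs
    · exact inv_anti₀ (by positivity) (pow_le_pow_left₀ hu.le hr.1 4)
    · positivity
  have h5 : (0 : ℝ) ≤ (u ^ 4)⁻¹ := by positivity
  rw [phi, abs_le]
  constructor <;> linarith

lemma Adm.stable {a : ℕ → ℝ} (ha : Adm a) : Stable (phi a) := by
  obtain ⟨C, -, h⟩ := superstable 0 (∑' k, a k) 0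
  refine ⟨C, fun N x hx => ?_⟩
  have := h a ha le_rfl 0 le_rfl (List.ofFn x).toFinset
  rw [HH_energy a 0 hx, List.toFinset_card_of_nodup (List.nodup_ofFn.2 hx), List.length_ofFn]
    at this
  linarith

lemma Adm.tempered {a : ℕ → ℝ} (ha : Adm a) : Tempered (phi a) := by
  refine ⟨1, 1, 1, one_pos, one_pos, one_pos, fun r hr => ?_⟩
  have h1 := ha.neg_phi_nonneg hr
  have h2 : 0 ≤ r ^ ((-3 : ℝ) - 1) := by positivity
  linarith

lemma Adm.integrableTail {a : ℕ → ℝ} (ha : Adm a) : IntegrableTail (phi a) := by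
  refine ⟨gg a, fun r hr s hs hrs => ?_, ?_, fun r hr => ?_⟩
  · refine (ha.summable_psi s).tsum_le_tsum (fun k => ?_) (ha.summable_psi r)
    refine mul_le_mul_of_nonneg_left ?_ (ha.nonneg k)
    by_cases h : 1 ≤ s ∧ s ≤ Rk k
    · rw [psi, psi, if_pos h, if_pos ⟨hr, hrs.trans h.2⟩]
    · rw [psi, if_neg h]; exact psi_nonneg _ _
  · have hm : Measurable fun r : ℝ => gg a r * r ^ 2 := ha.measurable_gg.mul (by fun_prop)
    refine (lintegral_ofReal_ne_top_iff_integrable hm.aestronglyMeasurable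
      (Eventually.of_forall fun r => mul_nonneg (ha.gg_nonneg r) (sq_nonneg r))).1 ?_
    have e : ∀ r : ℝ, ENNReal.ofReal (gg a r * r ^ 2) =
        ∑' k, ENNReal.ofReal (a k * psi k r * r ^ 2) := by
      intro r
      rw [← ENNReal.ofReal_tsum_of_nonneg
        (fun k => mul_nonneg (mul_nonneg (ha.nonneg k) (psi_nonneg k r)) (sq_nonneg r))
        ((ha.summable_psi r).mul_right _), tsum_mul_right, gg]
    simp_rw [e]
    rw [lintegral_tsum (f := fun k r => ENNReal.ofReal (a k * psi k r * r ^ 2))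
      fun k => (((measurable_psi k).const_mul _).mul
        (measurable_id.pow_const 2)).ennreal_ofReal.aemeasurable]
    refine ne_top_of_le_ne_top (b := ∑' k, ENNReal.ofReal (a k)) ?_
      (ENNReal.tsum_le_tsum fun k => ?_)
    · rw [← ENNReal.ofReal_tsum_of_nonneg ha.nonneg ha.summable]; exact ENNReal.ofReal_ne_top
    · have hR := Rk_pos k
      refine (setLIntegral_le_lintegral _ _).trans ?_
      calc _ ≤ ∫⁻ r : ℝ, (Set.Icc (0 : ℝ) (Rk k)).indicator
            (fun _ => ENNReal.ofReal (a k / Rk k)) r := by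
            refine lintegral_mono fun r => ?_
            by_cases h : 1 ≤ r ∧ r ≤ Rk k
            · rw [Set.indicator_of_mem (show r ∈ Set.Icc (0 : ℝ) (Rk k) from ⟨by linarith, h.2⟩),
                psi, if_pos h]
              refine ENNReal.ofReal_le_ofReal ?_
              have h2 : r ^ 2 ≤ (Rk k : ℝ) ^ 2 := by gcongr; linarith; exact h.2
              have h3 := ha.nonneg k
              calc _ ≤ a k * ((Rk k : ℝ) ^ 3)⁻¹ * (Rk k : ℝ) ^ 2 := by gcongr
                _ = _ := by field_simp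
            · simp [psi, h]
        _ = _ := by
            rw [lintegral_indicator_const measurableSet_Icc, Real.volume_Icc,
              ← ENNReal.ofReal_mul (div_nonneg (ha.nonneg k) (by linarith))]
            congr 1
            field_simp
            ring
  · rw [phi, phi0_of_one_le hr, zero_sub, abs_neg, abs_of_nonneg (ha.gg_nonneg r)]

theorem main : ∃ φ : ℝ → ℝ, Measurable φ ∧ LocallyBdd φ ∧ Stable φ ∧ Tempered φ ∧
    IntegrableTail φ ∧ ∃ β : ℝ, 0 < β ∧
      (∀ (L : ℝ) (N : ℕ), 0 < L → IntegrableOn (boltz φ β N) (confs L N)) ∧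
      (∀ z L : ℝ, 0 < z → 0 < L → Summable fun N : ℕ => z ^ N * canonicalZ φ β L N) ∧
      ∃ P : ℝ → ℝ,
        (∀ z : ℝ, 0 < z →
          Tendsto (fun L : ℝ => Real.log (grandZ φ β z L) / L ^ 3) atTop (𝓝 (P z))) ∧
        ∃ z₀ : ℝ, 0 < z₀ ∧ ¬ DifferentiableAt ℝ P z₀ := by
  obtain ⟨a, ha, μ, hμ⟩ := exists_kink
  refine ⟨phi a, ha.measurable_phi, ha.locallyBdd, ha.stable, ha.tempered, ha.integrableTail,
    1, one_pos, fun L N hL => ha.integrable_boltz hL.le N, fun z L hz hL => ?_,
    fun z => PP a (Real.log z), fun z hz => ?_, Real.exp μ, Real.exp_pos _, fun hd => hμ ?_⟩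
  · have := ha.summable_Z (Real.log z) hL.le
    rwa [Real.exp_log hz] at this
  · refine (ha.tendsto_PP (Real.log z)).congr' ?_
    filter_upwards [eventually_ge_atTop 0] with L hL
    have := ha.grandZ_eq (Real.log z) hL
    rw [Real.exp_log hz] at this
    rw [this, ff]
  · have := hd.comp μ Real.differentiable_exp.differentiableAt
    simpa [Function.comp_def] using this

end Vale.Agent.P171
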