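import Mathlib

/-! Iterated integrals of functions of lists and grand partition functions. -/

open MeasureTheory Finset
open scoped ENNReal

namespace Vale.Agent.P171

variable {X : Type} [MeasurableSpace X]

/-- Parametrised measurability of functions of lists. -/
def MeasP {A : Type} [MeasurableSpace A] (F : A → List X → ℝ≥0∞) : Prop :=
  ∀ n : ℕ, Measurable fun p : A × (Fin n → X) => F p.1 (List.ofFn p.2)

/-- Measurability of a function of lists. -/
def Meas (F : List X → ℝ≥0∞) : Prop :=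
  ∀ n : ℕ, Measurable fun x : Fin n → X => F (List.ofFn x)

lemma Meas.measP {F : List X → ℝ≥0∞} (h : Meas F) (A : Type) [MeasurableSpace A] :
    MeasP (fun _ : A => F) := fun n => (h n).comp measurable_snd

lemma MeasP.meas {A : Type} [MeasurableSpace A] {F : A → List X → ℝ≥0∞} (h : MeasP F) (a : A) :
    Meas (F a) := fun n => (h n).comp (measurable_const.prodMk measurable_id)

lemma measurable_cons (n : ℕ) :
    Measurable fun p : X × (Fin n → X) => (Fin.cons p.1 p.2 : Fin (n + 1) → X) := by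
  refine measurable_pi_lambda _ fun i => ?_
  refine Fin.cases ?_ (fun j => ?_) i
  · simpa using measurable_fst
  · simp only [Fin.cons_succ]
    exact (measurable_pi_apply j).comp measurable_snd

lemma MeasP.cons {A : Type} [MeasurableSpace A] {F : A → List X → ℝ≥0∞} (h : MeasP F) :
    MeasP (fun (p : A × X) l => F p.1 (p.2 :: l)) := by
  intro n
  have h1 : Measurable fun q : (A × X) × (Fin n → X) =>
      (q.1.1, (Fin.cons q.1.2 q.2 : Fin (n + 1) → X)) :=
    (measurable_fst.comp measurable_fst).prodMk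
      ((measurable_cons n).comp ((measurable_snd.comp measurable_fst).prodMk measurable_snd))
  have := (h (n + 1)).comp h1
  convert this using 2 with q
  simp [List.ofFn_succ]

lemma Meas.cons {F : List X → ℝ≥0∞} (h : Meas F) : MeasP (fun (x : X) l => F (x :: l)) := by
  intro n
  have := (h (n + 1)).comp (measurable_cons n)
  convert this using 2 with q
  simp [List.ofFn_succ]

lemma MeasP.filter (s : Set X) (hs : MeasurableSet s) [DecidablePred (· ∈ s)] (n : ℕ) :
    ∀ {A : Type} [MeasurableSpace A] {F : A → List X → ℝ≥0∞}, MeasP F →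
      Measurable fun p : A × (Fin n → X) => F p.1 ((List.ofFn p.2).filter (· ∈ s)) := by
  induction n with
  | zero =>
    intro A _ F h
    simpa using h 0
  | succ n ih =>
    intro A _ F h
    have h0 : Measurable fun p : A × (Fin (n + 1) → X) => p.2 0 :=
      (measurable_pi_apply 0).comp measurable_snd
    have ht : Measurable fun p : A × (Fin (n + 1) → X) => (fun i : Fin n => p.2 i.succ) :=
      measurable_pi_lambda _ fun i => (measurable_pi_apply _).comp measurable_snd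
    have h1 := (ih h.cons).comp ((measurable_fst.prodMk h0).prodMk ht)
    have h2 := (ih h).comp (measurable_fst.prodMk ht)
    have := @Measurable.ite _ _ _ _ _ _ (fun p : A × (Fin (n + 1) → X) => p.2 0 ∈ s)
      (fun p => inferInstanceAs (Decidable (p.2 0 ∈ s))) (h0 hs) h1 h2
    convert this using 2 with p
    by_cases hp : p.2 0 ∈ s <;> simp [List.ofFn_succ, hp]

lemma Meas.filter {F : List X → ℝ≥0∞} (h : Meas F) (s : Set X) (hs : MeasurableSet s)
    [DecidablePred (· ∈ s)] : Meas fun l => F (l.filter (· ∈ s)) := fun n =>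
  (MeasP.filter s hs n (h.measP Unit)).comp
    ((measurable_const (a := ())).prodMk measurable_id)

lemma Meas.mul {F G : List X → ℝ≥0∞} (hF : Meas F) (hG : Meas G) :
    Meas fun l => F l * G l := fun n => (hF n).mul (hG n)

lemma Meas.add {F G : List X → ℝ≥0∞} (hF : Meas F) (hG : Meas G) :
    Meas fun l => F l + G l := fun n => (hF n).add (hG n)

lemma Meas.const (c : ℝ≥0∞) : Meas fun _ : List X => c := fun _ => measurable_const

lemma Meas.len (f : ℕ → ℝ≥0∞) : Meas fun l : List X => f l.length := fun n => by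
  simp

lemma Meas.prod {ι : Type} (T : Finset ι) {F : ι → List X → ℝ≥0∞} (h : ∀ i ∈ T, Meas (F i)) :
    Meas fun l => ∏ i ∈ T, F i l := fun n =>
  Finset.measurable_prod T fun i hi => h i hi n

variable (ν : Measure X)

/-- Iterated integral over `Λ`. -/
noncomputable def I (Λ : Set X) : ℕ → (List X → ℝ≥0∞) → ℝ≥0∞
  | 0, F => F []
  | n + 1, F => ∫⁻ x in Λ, I Λ n (fun l => F (x :: l)) ∂ν

/-- Grand partition function. -/
noncomputable def Xi (Λ : Set X) (F : List X → ℝ≥0∞) : ℝ≥0∞ :=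
  ∑' n : ℕ, ((n.factorial : ℝ≥0∞))⁻¹ * I ν Λ n F

variable {ν}

lemma I_meas [SFinite ν] (Λ : Set X) (n : ℕ) :
    ∀ {A : Type} [MeasurableSpace A] {F : A → List X → ℝ≥0∞}, MeasP F →
      Measurable fun a => I ν Λ n (F a) := by
  induction n with
  | zero =>
    intro A _ F h
    have := (h 0).comp (measurable_id.prodMk (measurable_const (a := Fin.elim0)))
    simpa [I, Function.comp_def] using this
  | succ n ih =>
    intro A _ F h
    simp only [I]
    exact Measurable.lintegral_prod_right (f := fun a x => I ν Λ n fun l => F a (x :: l))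
      (ih h.cons)

lemma I_mono {Λ : Set X} (hΛ : MeasurableSet Λ) (n : ℕ) :
    ∀ {F G : List X → ℝ≥0∞}, (∀ l : List X, (∀ x ∈ l, x ∈ Λ) → F l ≤ G l) →
      I ν Λ n F ≤ I ν Λ n G := by
  induction n with
  | zero => intro F G h; exact h [] (by simp)
  | succ n ih =>
    intro F G h
    simp only [I]
    refine setLIntegral_mono' hΛ fun x hx => ih fun l hl => h _ ?_
    intro y hy
    rcases List.mem_cons.1 hy with rfl | hy
    · exact hx
    · exact hl y hy

lemma I_mono_set {Λ Λ' : Set X} (h : Λ ⊆ Λ') (n : ℕ) :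
    ∀ F : List X → ℝ≥0∞, I ν Λ n F ≤ I ν Λ' n F := by
  induction n with
  | zero => intro F; exact le_rfl
  | succ n ih =>
    intro F
    simp only [I]
    exact (lintegral_mono fun x => ih _).trans (lintegral_mono_set h)

lemma I_add [SFinite ν] (Λ : Set X) (n : ℕ) :
    ∀ {F G : List X → ℝ≥0∞}, Meas F → Meas G →
      I ν Λ n (fun l => F l + G l) = I ν Λ n F + I ν Λ n G := by
  induction n with
  | zero => intro F G _ _; rfl
  | succ n ih =>
    intro F G hF hG
    simp only [I]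
    rw [← lintegral_add_left (I_meas Λ n hF.cons)]
    refine lintegral_congr fun x => ?_
    exact ih (hF.cons.meas x) (hG.cons.meas x)

lemma I_const_mul [SFinite ν] (Λ : Set X) (c : ℝ≥0∞) (n : ℕ) :
    ∀ {F : List X → ℝ≥0∞}, Meas F → I ν Λ n (fun l => c * F l) = c * I ν Λ n F := by
  induction n with
  | zero => intro F _; rfl
  | succ n ih =>
    intro F hF
    simp only [I]
    rw [← lintegral_const_mul _ (I_meas Λ n hF.cons)]
    refine lintegral_congr fun x => ?_
    exact ih (hF.cons.meas x)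

lemma I_len (Λ : Set X) (n : ℕ) :
    ∀ f : ℕ → ℝ≥0∞, I ν Λ n (fun l => f l.length) = f n * ν Λ ^ n := by
  induction n with
  | zero => intro f; simp [I]
  | succ n ih =>
    intro f
    simp only [I, List.length_cons]
    rw [ih fun m => f (m + 1)]
    simp [pow_succ, mul_assoc]

lemma I_map {Λ : Set X} {g : X → X} (hg : MeasurePreserving g ν ν) (he : MeasurableEmbedding g)
    (n : ℕ) : ∀ F : List X → ℝ≥0∞, I ν (g ⁻¹' Λ) n (fun l => F (l.map g)) = I ν Λ n F := by
  induction n with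
  | zero => intro F; rfl
  | succ n ih =>
    intro F
    simp only [I, List.map_cons]
    rw [← hg.setLIntegral_comp_preimage_emb he (fun x => I ν Λ n fun l => F (x :: l)) Λ]
    refine lintegral_congr fun x => ?_
    exact ih fun l => F (g x :: l)

lemma I_union [SFinite ν] {Λ₁ Λ₂ : Set X} (h₁ : MeasurableSet Λ₁) (h₂ : MeasurableSet Λ₂)
    (hd : Disjoint Λ₁ Λ₂) [DecidablePred (· ∈ Λ₁)] [DecidablePred (· ∈ Λ₂)] (n : ℕ) :
    ∀ {F G : List X → ℝ≥0∞}, Meas F → Meas G →
      I ν (Λ₁ ∪ Λ₂) n (fun l => F (l.filter (· ∈ Λ₁)) * G (l.filter (· ∈ Λ₂))) =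
        ∑ ij ∈ antidiagonal n, (n.choose ij.1 : ℝ≥0∞) * (I ν Λ₁ ij.1 F * I ν Λ₂ ij.2 G) := by
  induction n with
  | zero => intro F G _ _; simp [I]
  | succ n ih =>
    intro F G hF hG
    rw [Finset.sum_antidiagonal_choose_succ_mul
      (fun i j => I ν Λ₁ i F * I ν Λ₂ j G) n]
    simp only [I]
    rw [lintegral_union h₂ hd, add_comm]
    congr 1
    · have e : ∀ x ∈ Λ₂, I ν (Λ₁ ∪ Λ₂) n (fun l => F ((x :: l).filter (· ∈ Λ₁)) *
          G ((x :: l).filter (· ∈ Λ₂))) = ∑ ij ∈ antidiagonal n, (n.choose ij.1 : ℝ≥0∞) *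
            (I ν Λ₁ ij.1 F * I ν Λ₂ ij.2 fun l => G (x :: l)) := by
        intro x hx
        have hx1 : x ∉ Λ₁ := fun h => Set.disjoint_left.1 hd h hx
        rw [← ih hF (hG.cons.meas x)]
        simp [hx, hx1]
      rw [setLIntegral_congr_fun h₂ e, lintegral_finsetSum]
      · refine Finset.sum_congr rfl fun ij _ => ?_
        rw [lintegral_const_mul, lintegral_const_mul]
        · exact I_meas Λ₂ _ hG.cons
        · exact (I_meas Λ₂ _ hG.cons).const_mul _
      · intro ij _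
        exact ((I_meas Λ₂ _ hG.cons).const_mul _).const_mul _
    · have e : ∀ x ∈ Λ₁, I ν (Λ₁ ∪ Λ₂) n (fun l => F ((x :: l).filter (· ∈ Λ₁)) *
          G ((x :: l).filter (· ∈ Λ₂))) = ∑ ij ∈ antidiagonal n, (n.choose ij.1 : ℝ≥0∞) *
            (I ν Λ₁ ij.1 (fun l => F (x :: l)) * I ν Λ₂ ij.2 G) := by
        intro x hx
        have hx1 : x ∉ Λ₂ := fun h => Set.disjoint_left.1 hd hx h
        rw [← ih (hF.cons.meas x) hG]
        simp [hx, hx1]
      rw [setLIntegral_congr_fun h₁ e, lintegral_finsetSum]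
      · refine Finset.sum_congr rfl fun ij hij => ?_
        rw [lintegral_const_mul, lintegral_mul_const]
        · rw [Nat.choose_symm_of_eq_add (mem_antidiagonal.1 hij).symm]
        · exact I_meas Λ₁ _ hF.cons
        · exact (I_meas Λ₁ _ hF.cons).mul_const _
      · intro ij _
        exact ((I_meas Λ₁ _ hF.cons).mul_const _).const_mul _

lemma cauchy (f g : ℕ → ℝ≥0∞) :
    (∑' n, f n) * ∑' n, g n = ∑' n, ∑ kl ∈ antidiagonal n, f kl.1 * g kl.2 := by
  have h1 : (∑' n, f n) * ∑' n, g n = ∑' p : ℕ × ℕ, f p.1 * g p.2 := by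
    rw [ENNReal.tsum_prod', ← ENNReal.tsum_mul_right]
    simp_rw [ENNReal.tsum_mul_left]
  rw [h1, ← HasAntidiagonal.sigmaAntidiagonalEquivProd.tsum_eq, ENNReal.tsum_sigma']
  refine tsum_congr fun n => ?_
  rw [← Finset.sum_finset_coe, tsum_fintype]
  rfl

lemma Xi_union [SFinite ν] {Λ₁ Λ₂ : Set X} (h₁ : MeasurableSet Λ₁) (h₂ : MeasurableSet Λ₂)
    (hd : Disjoint Λ₁ Λ₂) [DecidablePred (· ∈ Λ₁)] [DecidablePred (· ∈ Λ₂)]
    {F G : List X → ℝ≥0∞} (hF : Meas F) (hG : Meas G) :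
    Xi ν (Λ₁ ∪ Λ₂) (fun l => F (l.filter (· ∈ Λ₁)) * G (l.filter (· ∈ Λ₂))) =
      Xi ν Λ₁ F * Xi ν Λ₂ G := by
  unfold Xi
  rw [cauchy]
  refine tsum_congr fun n => ?_
  rw [I_union h₁ h₂ hd n hF hG, Finset.mul_sum]
  refine Finset.sum_congr rfl fun ij hij => ?_
  have hn : ij.1 + ij.2 = n := mem_antidiagonal.1 hij
  have hc : (n.factorial : ℝ≥0∞) =
      (n.choose ij.1 : ℝ≥0∞) * (ij.1.factorial : ℝ≥0∞) * (ij.2.factorial : ℝ≥0∞) := by
    have := Nat.add_choose_mul_factorial_mul_factorial ij.2 ij.1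
    rw [add_comm, hn] at this
    rw [← this]; push_cast; ring
  have hc0 : (n.choose ij.1 : ℝ≥0∞) ≠ 0 := by
    have := Nat.choose_pos (show ij.1 ≤ n by omega)
    exact_mod_cast this.ne'
  have key : ((n.factorial : ℝ≥0∞))⁻¹ * (n.choose ij.1 : ℝ≥0∞) =
      ((ij.1.factorial : ℝ≥0∞))⁻¹ * ((ij.2.factorial : ℝ≥0∞))⁻¹ := by
    rw [hc, ENNReal.mul_inv (by simp) (by simp [Nat.factorial_ne_zero]),
      ENNReal.mul_inv (by simp) (by simp)]
    have := ENNReal.inv_mul_cancel hc0 (ENNReal.natCast_ne_top _)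
    calc _ = ((n.choose ij.1 : ℝ≥0∞)⁻¹ * (n.choose ij.1 : ℝ≥0∞)) *
        (((ij.1.factorial : ℝ≥0∞))⁻¹ * ((ij.2.factorial : ℝ≥0∞))⁻¹) := by ring
      _ = _ := by rw [this, one_mul]
  calc _ = (((n.factorial : ℝ≥0∞))⁻¹ * (n.choose ij.1 : ℝ≥0∞)) *
      (I ν Λ₁ ij.1 F * I ν Λ₂ ij.2 G) := by ring
    _ = _ := by rw [key]; ring

lemma Xi_mono {Λ : Set X} (hΛ : MeasurableSet Λ) {F G : List X → ℝ≥0∞}
    (h : ∀ l : List X, (∀ x ∈ l, x ∈ Λ) → F l ≤ G l) : Xi ν Λ F ≤ Xi ν Λ G :=
  ENNReal.tsum_le_tsum fun n => mul_le_mul_right (I_mono hΛ n h) _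

lemma Xi_congr {Λ : Set X} (hΛ : MeasurableSet Λ) {F G : List X → ℝ≥0∞}
    (h : ∀ l : List X, (∀ x ∈ l, x ∈ Λ) → F l = G l) : Xi ν Λ F = Xi ν Λ G :=
  le_antisymm (Xi_mono hΛ fun l hl => (h l hl).le) (Xi_mono hΛ fun l hl => (h l hl).ge)

lemma Xi_mono_set {Λ Λ' : Set X} (h : Λ ⊆ Λ') (F : List X → ℝ≥0∞) : Xi ν Λ F ≤ Xi ν Λ' F :=
  ENNReal.tsum_le_tsum fun n => mul_le_mul_right (I_mono_set h n F) _

lemma Xi_add [SFinite ν] (Λ : Set X) {F G : List X → ℝ≥0∞} (hF : Meas F) (hG : Meas G) :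
    Xi ν Λ (fun l => F l + G l) = Xi ν Λ F + Xi ν Λ G := by
  unfold Xi
  rw [← ENNReal.tsum_add]
  exact tsum_congr fun n => by rw [I_add Λ n hF hG, mul_add]

lemma Xi_const_mul [SFinite ν] (Λ : Set X) (c : ℝ≥0∞) {F : List X → ℝ≥0∞} (hF : Meas F) :
    Xi ν Λ (fun l => c * F l) = c * Xi ν Λ F := by
  unfold Xi
  rw [← ENNReal.tsum_mul_left]
  exact tsum_congr fun n => by rw [I_const_mul Λ c n hF]; ring

lemma Xi_map {Λ : Set X} {g : X → X} (hg : MeasurePreserving g ν ν) (he : MeasurableEmbedding g)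
    (F : List X → ℝ≥0∞) : Xi ν (g ⁻¹' Λ) (fun l => F (l.map g)) = Xi ν Λ F :=
  tsum_congr fun n => by rw [I_map hg he]

lemma le_Xi (Λ : Set X) (F : List X → ℝ≥0∞) : F [] ≤ Xi ν Λ F := by
  refine le_trans ?_ (ENNReal.le_tsum 0)
  simp [I]

lemma Xi_empty (F : List X → ℝ≥0∞) : Xi ν ∅ F = F [] := by
  unfold Xi
  rw [tsum_eq_single 0]
  · simp [I]
  · intro n hn
    obtain ⟨m, rfl⟩ := Nat.exists_eq_succ_of_ne_zero hn
    simp [I]

lemma Xi_ideal {Λ : Set X} {v : ℝ} (hv : 0 ≤ v) (hΛ : ν Λ ≤ ENNReal.ofReal v) (c : ℝ) :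
    Xi ν Λ (fun l => ENNReal.ofReal (Real.exp (c * l.length))) ≤
      ENNReal.ofReal (Real.exp (Real.exp c * v)) := by
  unfold Xi
  have hs := Real.summable_pow_div_factorial (Real.exp c * v)
  have e : Real.exp (Real.exp c * v) = ∑' n : ℕ, (Real.exp c * v) ^ n / n.factorial := by
    rw [Real.exp_eq_exp_ℝ, NormedSpace.exp_eq_tsum_div]
  rw [e, ENNReal.ofReal_tsum_of_nonneg (fun n => by positivity) hs]
  refine ENNReal.tsum_le_tsum fun n => ?_
  rw [I_len Λ n fun m => ENNReal.ofReal (Real.exp (c * m))]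
  have h1 : ν Λ ^ n ≤ ENNReal.ofReal (v ^ n) := by
    rw [ENNReal.ofReal_pow hv]; gcongr
  calc _ ≤ ((n.factorial : ℝ≥0∞))⁻¹ * (ENNReal.ofReal (Real.exp (c * n)) *
        ENNReal.ofReal (v ^ n)) := by gcongr
    _ = _ := by
      rw [← ENNReal.ofReal_mul (by positivity), div_eq_inv_mul,
        ENNReal.ofReal_mul (p := ((n.factorial : ℝ))⁻¹) (by positivity),
        ENNReal.ofReal_inv_of_pos (by positivity), ENNReal.ofReal_natCast, mul_pow,
        ← Real.exp_nat_mul, mul_comm c]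

lemma Xi_one (Λ : Set X) (c : ℝ≥0∞) :
    Xi ν Λ (fun l => if l.length = 1 then c else 0) = c * ν Λ := by
  unfold Xi
  rw [tsum_eq_single 1]
  · rw [I_len Λ 1 fun m => if m = 1 then c else 0]; simp
  · intro n hn
    rw [I_len Λ n fun m => if m = 1 then c else 0]; simp [hn]

open Classical in
lemma Xi_prod [SFinite ν] {ι : Type} (Λ : ι → Set X) (hm : ∀ i, MeasurableSet (Λ i))
    (F : ι → List X → ℝ≥0∞) (hF : ∀ i, Meas (F i)) (T : Finset ι)
    (hd : (T : Set ι).PairwiseDisjoint Λ) :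
    Xi ν (⋃ i ∈ T, Λ i) (fun l => ∏ i ∈ T, F i (l.filter (· ∈ Λ i))) =
      ∏ i ∈ T, Xi ν (Λ i) (F i) := by
  induction T using Finset.induction_on with
  | empty => simp [Xi_empty]
  | insert i T hi ih =>
    have hd' : (T : Set ι).PairwiseDisjoint Λ := hd.subset (by simp)
    have hU : MeasurableSet (⋃ j ∈ T, Λ j) := T.measurableSet_biUnion fun j _ => hm j
    have hdis : Disjoint (Λ i) (⋃ j ∈ T, Λ j) := by
      simp only [Set.disjoint_iUnion_right]
      intro j hj
      exact hd (by simp) (by simp [hj]) (fun h => hi (h ▸ hj))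
    rw [Finset.set_biUnion_insert, Finset.prod_insert hi, ← ih hd',
      ← Xi_union (hm i) hU hdis (hF i) (Meas.prod T fun j _ => (hF j).filter _ (hm j))]
    congr 1
    funext l
    rw [Finset.prod_insert hi]
    congr 1
    refine Finset.prod_congr rfl fun j hj => ?_
    rw [List.filter_filter]
    congr 1
    refine List.filter_congr fun x _ => ?_
    by_cases hx : x ∈ Λ j
    · have : x ∈ ⋃ j ∈ T, Λ j := Set.mem_biUnion hj hx
      simp only [hx, this, decide_true, Bool.and_self]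
    · simp [hx]

lemma I_eq_pi [SigmaFinite ν] (Λ : Set X) (n : ℕ) :
    ∀ {F : List X → ℝ≥0∞}, Meas F →
      I ν Λ n F = ∫⁻ x, F (List.ofFn x) ∂(Measure.pi fun _ : Fin n => ν.restrict Λ) := by
  induction n with
  | zero =>
    intro F _
    simp [I]
  | succ n ih =>
    intro F hF
    simp only [I]
    have hp := (measurePreserving_piFinSuccAbove (fun _ : Fin (n + 1) => ν.restrict Λ) 0).symm
    rw [← hp.lintegral_comp (hF (n + 1)), lintegral_prod]
    · refine lintegral_congr fun x => ?_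
      rw [ih (hF.cons.meas x)]
      refine lintegral_congr fun y => ?_
      simp [MeasurableEquiv.piFinSuccAbove, List.ofFn_succ]
    · exact ((hF (n + 1)).comp (MeasurableEquiv.measurable _)).aemeasurable

end Vale.Agent.P171
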