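import Vale.Agent.P171.Pressure

/-! A lower bound on the pressure from one particle per cube. -/

open MeasureTheory Finset Filter Topology
open scoped ENNReal

namespace Vale.Agent.P171

lemma mem_J {n : ℕ} {j : Fin 3 → ℕ} : j ∈ J n ↔ ∀ k, j k < n := by
  simp [J, Fintype.mem_piFinset]

lemma count_psi (k m : ℕ) (hk : k + 1 ≤ m) (x : (Fin 3 → ℕ) → V3)
    (hx : ∀ j ∈ J (2 * m), x j ∈ blk 2 1 j) :
    (m : ℝ) ^ 3 / 512 ≤ ∑ j ∈ J (2 * m), ∑ j' ∈ J (2 * m), psi k (dist (x j) (x j')) := by
  set D : Finset (Fin 3 → ℕ) := Fintype.piFinset fun _ => Finset.Icc 1 (k + 1) with hD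
  have hDc : D.card = (k + 1) ^ 3 := by simp [hD, Fintype.card_piFinset]
  have hsub : J m ⊆ J (2 * m) := fun j hj => mem_J.2 fun i => by have := mem_J.1 hj i; omega
  refine le_trans ?_ (Finset.sum_le_sum_of_subset_of_nonneg hsub fun j _ _ =>
    Finset.sum_nonneg fun j' _ => psi_nonneg _ _)
  have h1 : ∀ j ∈ J m, (1 : ℝ) / 512 ≤ ∑ j' ∈ J (2 * m), psi k (dist (x j) (x j')) := by
    intro j hj
    have hmem : ∀ d ∈ D, j + d ∈ J (2 * m) := by
      intro d hd
      refine mem_J.2 fun i => ?_
      have h1 := mem_J.1 hj i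
      have h2 := Finset.mem_Icc.1 (Fintype.mem_piFinset.1 hd i)
      simp only [Pi.add_apply]; omega
    have hs : D.image (fun d => j + d) ⊆ J (2 * m) := by
      intro j' hj'
      obtain ⟨d, hd, rfl⟩ := Finset.mem_image.1 hj'
      exact hmem d hd
    refine le_trans ?_ (Finset.sum_le_sum_of_subset_of_nonneg hs fun j' _ _ => psi_nonneg _ _)
    rw [Finset.sum_image fun d _ d' _ h => add_left_cancel h]
    have h2 : ∀ d ∈ D, psi k (dist (x j) (x (j + d))) = ((Rk k : ℝ) ^ 3)⁻¹ := by
      intro d hd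
      have hd' := fun i => Finset.mem_Icc.1 (Fintype.mem_piFinset.1 hd i)
      have hne : j ≠ j + d := by
        intro h
        have h1 := congrFun h 0
        have h2 := hd' 0
        simp only [Pi.add_apply] at h1; omega
      have a1 := hx j (hsub hj)
      have a2 := hx _ (hmem d hd)
      rw [psi, if_pos]
      refine ⟨by have := blk_dist (by norm_num) hne a1 a2; linarith, ?_⟩
      have h3 : ∀ i, |x j i - x (j + d) i| ≤ 2 * (k + 1) + 1 := by
        intro i
        have b1 := a1 i
        have b2 := a2 i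
        have b3 : (d i : ℝ) ≤ k + 1 := by exact_mod_cast (hd' i).2
        have b4 : (0 : ℝ) ≤ d i := Nat.cast_nonneg _
        simp only [Pi.add_apply, Nat.cast_add, Set.mem_Icc] at b1 b2
        rw [abs_le]; constructor <;> linarith [b1.1, b1.2, b2.1, b2.2]
      refine (dist_le_of_coord h3).trans ?_
      unfold Rk; push_cast
      linarith [Nat.cast_nonneg (α := ℝ) k]
    rw [Finset.sum_congr rfl h2, Finset.sum_const, hDc, nsmul_eq_mul]
    unfold Rk; push_cast
    refine le_of_eq ?_
    field_simp; ring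
  refine le_trans (le_of_eq ?_) (Finset.sum_le_sum h1)
  rw [Finset.sum_const, card_J, nsmul_eq_mul]; push_cast; ring

open Classical in
lemma Adm.ff_lower {a : ℕ → ℝ} (ha : Adm a) (μ : ℝ) (K m : ℕ) (hK : K ≤ m) :
    ((2 * m : ℕ) : ℝ) ^ 3 * (μ + (∑ k ∈ range K, a k) / 8192) ≤ ff a μ (m * 4) := by
  set b := μ + (∑ k ∈ range K, a k) / 8192 with hb
  have hd := blk_disj (s := 2) (ℓ := 1) (by norm_num) (by norm_num) (J (2 * m))
  refine ha.le_ff (by positivity) ?_
  have hp := Xi_prod (ν := volume) (blk 2 1) (measurableSet_blk _ _)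
    (fun _ l => if l.length = 1 then ENNReal.ofReal (Real.exp b) else 0)
    (fun _ => Meas.len fun n => if n = 1 then ENNReal.ofReal (Real.exp b) else 0) (J (2 * m)) hd
  simp only [Xi_one, volume_blk 2 zero_le_one, one_pow, ENNReal.ofReal_one, mul_one] at hp
  rw [prod_ofReal_exp, Finset.sum_const, card_J, nsmul_eq_mul, Nat.cast_pow] at hp
  rw [← hp, ZZ]
  refine le_trans ?_ (Xi_mono_set (blk_sub (s := 2) (ℓ := 1) (n := 2 * m) (by norm_num)
    (by norm_num) (by push_cast; linarith)) _)
  refine Xi_mono ((J _).measurableSet_biUnion fun j _ => measurableSet_blk _ _ j) fun l hl => ?_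
  by_cases hn : ∀ j ∈ J (2 * m), (l.filter (· ∈ blk 2 1 j)).length = 1
  · rw [Finset.prod_congr rfl fun j hj => if_pos (hn j hj), prod_ofReal_exp, Finset.sum_const,
      card_J, nsmul_eq_mul, Nat.cast_pow]
    simp only [List.length_eq_one_iff] at hn
    choose! x hx using hn
    have hl' : l.Nodup := nodup_of_filters hl fun j hj => by rw [hx j hj]; simp
    rw [W_of_nodup _ hl']
    refine ofReal_exp_le ?_
    have hA : ∀ x ∈ l.toFinset, x ∈ ⋃ j ∈ J (2 * m), blk 2 1 j :=
      fun x hx => hl x (List.mem_toFinset.1 hx)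
    have hf : ∀ j ∈ J (2 * m), l.toFinset.filter (· ∈ blk 2 1 j) = {x j} := by
      intro j hj
      rw [← toFinset_filter', hx j hj]; simp
    have hxb : ∀ j ∈ J (2 * m), x j ∈ blk 2 1 j := by
      intro j hj
      have : x j ∈ l.toFinset.filter (· ∈ blk 2 1 j) := by rw [hf j hj]; simp
      exact (Finset.mem_filter.1 this).2
    have hsum : ∀ f : V3 → ℝ, ∑ y ∈ l.toFinset, f y = ∑ j ∈ J (2 * m), f (x j) := by
      intro f
      rw [← sum_parts hd hA]
      exact Finset.sum_congr rfl fun j hj => by rw [hf j hj, Finset.sum_singleton]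
    have hc : (l.toFinset.card : ℝ) = ((2 * m : ℕ) : ℝ) ^ 3 := by
      have := hsum fun _ => 1
      simpa [card_J] using this
    have hQ : Q (phi a) l.toFinset l.toFinset =
        -∑ j ∈ J (2 * m), ∑ j' ∈ J (2 * m), gg a (dist (x j) (x j')) := by
      unfold Q
      rw [hsum, ← Finset.sum_neg_distrib]
      refine Finset.sum_congr rfl fun j hj => ?_
      rw [hsum, ← Finset.sum_neg_distrib]
      refine Finset.sum_congr rfl fun j' hj' => ?_
      by_cases h : j = j'
      · simp [h, phi_zero, gg_lt_one a one_pos]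
      · have := blk_dist (by norm_num) h (hxb j hj) (hxb j' hj')
        rw [phi, phi0_of_one_le (by linarith)]; simp
    have h1 : ∑ k ∈ range K, a k * ((m : ℝ) ^ 3 / 512) ≤
        ∑ j ∈ J (2 * m), ∑ j' ∈ J (2 * m), gg a (dist (x j) (x j')) := by
      calc _ ≤ ∑ k ∈ range K, a k *
            ∑ j ∈ J (2 * m), ∑ j' ∈ J (2 * m), psi k (dist (x j) (x j')) :=
            Finset.sum_le_sum fun k hk => mul_le_mul_of_nonneg_left
              (count_psi k m (by have := Finset.mem_range.1 hk; omega) x hxb) (ha.nonneg k)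
        _ = ∑ j ∈ J (2 * m), ∑ j' ∈ J (2 * m), ∑ k ∈ range K,
            a k * psi k (dist (x j) (x j')) := by
            simp_rw [Finset.mul_sum]
            rw [Finset.sum_comm]
            exact Finset.sum_congr rfl fun j _ => Finset.sum_comm
        _ ≤ _ := Finset.sum_le_sum fun j _ => Finset.sum_le_sum fun j' _ =>
            (ha.summable_psi _).sum_le_tsum _ fun k _ => mul_nonneg (ha.nonneg k) (psi_nonneg _ _)
    rw [← Finset.sum_mul] at h1
    rw [HH, hQ, hc, hb]
    push_cast
    nlinarith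
  · push Not at hn
    obtain ⟨j, hj, hn⟩ := hn
    rw [Finset.prod_eq_zero hj (if_neg hn)]
    exact zero_le

lemma Adm.PP_lower {a : ℕ → ℝ} (ha : Adm a) (μ : ℝ) :
    (μ + (∑' k, a k) / 8192) / 8 ≤ PP a μ := by
  have h1 : ∀ K, (μ + (∑ k ∈ range K, a k) / 8192) / 8 ≤ PP a μ := by
    intro K
    refine ge_of_tendsto (ha.tendsto_seq μ (p := 4) (by norm_num)) ?_
    filter_upwards [eventually_ge_atTop K, eventually_ge_atTop 1] with m hm hm1
    have := ha.ff_lower μ K m hm
    have hm0 : (0 : ℝ) < m := by exact_mod_cast hm1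
    rw [le_div_iff₀ (by positivity)]
    refine le_trans (le_of_eq ?_) this
    push_cast; ring
  exact le_of_tendsto' (((ha.summable.hasSum.tendsto_sum_nat.div_const 8192).const_add μ).div_const 8)
    h1

end Vale.Agent.P171
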