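import Vale.Agent.P171.Boxes

/-! The pressure: existence of the limit, continuity, and a lower bound. -/

open MeasureTheory Finset Filter Topology
open scoped ENNReal

namespace Vale.Agent.P171

noncomputable def ZZ (a : ℕ → ℝ) (μ L : ℝ) : ℝ≥0∞ := Xi volume (box L) (W (HH a μ))

noncomputable def ff (a : ℕ → ℝ) (μ L : ℝ) : ℝ := Real.log (ZZ a μ L).toReal

noncomputable def PP (a : ℕ → ℝ) (μ : ℝ) : ℝ :=
  ⨆ L : {L : ℝ // 0 ≤ L}, ff a μ L / ((L : ℝ) + 1) ^ 3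

lemma W_le_ideal {H : Finset V3 → ℝ} {C : ℝ} (h : ∀ A, H A ≤ C * A.card) (l : List V3) :
    W H l ≤ ENNReal.ofReal (Real.exp (C * l.length)) := by
  by_cases hl : l.Nodup
  · rw [W_of_nodup H hl, ← List.toFinset_card_of_nodup hl]
    exact ofReal_exp_le (h _)
  · rw [W_of_not_nodup H hl]; exact zero_le

lemma one_le_ZZ (a : ℕ → ℝ) (μ L : ℝ) : 1 ≤ ZZ a μ L := by
  refine le_trans ?_ (le_Xi _ _)
  simp [W, HH, Q]

lemma Adm.ZZ_le {a : ℕ → ℝ} (ha : Adm a) (μ : ℝ) : ∃ M : ℝ, 0 ≤ M ∧ ∀ L, 0 ≤ L →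
    ZZ a μ L ≤ ENNReal.ofReal (Real.exp (M * L ^ 3)) := by
  obtain ⟨C, -, h⟩ := superstable 0 (∑' k, a k) μ
  refine ⟨Real.exp C, (Real.exp_pos _).le, fun L hL => ?_⟩
  refine le_trans ?_ (Xi_ideal (by positivity) (volume_box hL).le C)
  refine Xi_mono (measurableSet_box L) fun l _ => W_le_ideal (fun A => ?_) l
  simpa using h a ha le_rfl μ le_rfl A

lemma Adm.ZZ_ne_top {a : ℕ → ℝ} (ha : Adm a) (μ : ℝ) {L : ℝ} (hL : 0 ≤ L) : ZZ a μ L ≠ ⊤ := by
  obtain ⟨M, -, h⟩ := ha.ZZ_le μ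
  exact ne_top_of_le_ne_top ENNReal.ofReal_ne_top (h L hL)

lemma Adm.ZZ_eq {a : ℕ → ℝ} (ha : Adm a) (μ : ℝ) {L : ℝ} (hL : 0 ≤ L) :
    ZZ a μ L = ENNReal.ofReal (Real.exp (ff a μ L)) := by
  have h0 : ZZ a μ L ≠ 0 := (zero_lt_one.trans_le (one_le_ZZ a μ L)).ne'
  rw [ff, Real.exp_log (ENNReal.toReal_pos h0 (ha.ZZ_ne_top μ hL)),
    ENNReal.ofReal_toReal (ha.ZZ_ne_top μ hL)]

lemma exp_le_of {x y : ℝ} (h : ENNReal.ofReal (Real.exp x) ≤ ENNReal.ofReal (Real.exp y)) :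
    x ≤ y :=
  Real.exp_le_exp.1 ((ENNReal.ofReal_le_ofReal_iff (Real.exp_pos _).le).1 h)

lemma Adm.ff_le {a : ℕ → ℝ} (ha : Adm a) {μ L b : ℝ} (hL : 0 ≤ L)
    (h : ZZ a μ L ≤ ENNReal.ofReal (Real.exp b)) : ff a μ L ≤ b :=
  exp_le_of (ha.ZZ_eq μ hL ▸ h)

lemma Adm.le_ff {a : ℕ → ℝ} (ha : Adm a) {μ L b : ℝ} (hL : 0 ≤ L)
    (h : ENNReal.ofReal (Real.exp b) ≤ ZZ a μ L) : b ≤ ff a μ L :=
  exp_le_of (ha.ZZ_eq μ hL ▸ h)

lemma Adm.ff_nonneg {a : ℕ → ℝ} (ha : Adm a) (μ : ℝ) {L : ℝ} (hL : 0 ≤ L) : 0 ≤ ff a μ L :=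
  ha.le_ff hL (by simpa using one_le_ZZ a μ L)

lemma Adm.bdd {a : ℕ → ℝ} (ha : Adm a) (μ : ℝ) :
    BddAbove (Set.range fun L : {L : ℝ // 0 ≤ L} => ff a μ L / ((L : ℝ) + 1) ^ 3) := by
  obtain ⟨M, hM, h⟩ := ha.ZZ_le μ
  refine ⟨M, ?_⟩
  rintro _ ⟨⟨L, hL⟩, rfl⟩
  have h1 := ha.ff_le hL (h L hL)
  have h2 : L ^ 3 ≤ (L + 1) ^ 3 := by gcongr; linarith
  simp only
  rw [div_le_iff₀ (by positivity)]
  nlinarith

lemma Adm.ff_le_PP {a : ℕ → ℝ} (ha : Adm a) (μ : ℝ) {L : ℝ} (hL : 0 ≤ L) :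
    ff a μ L ≤ PP a μ * (L + 1) ^ 3 := by
  have := le_ciSup (ha.bdd μ) ⟨L, hL⟩
  rw [← div_le_iff₀ (by positivity)]
  exact this

lemma Adm.PP_nonneg {a : ℕ → ℝ} (ha : Adm a) (μ : ℝ) : 0 ≤ PP a μ := by
  have h1 := ha.ff_le_PP μ le_rfl
  have h2 := ha.ff_nonneg μ le_rfl
  simpa using h2.trans h1

lemma Adm.neg_phi_nonneg {a : ℕ → ℝ} (ha : Adm a) {r : ℝ} (hr : 1 ≤ r) : 0 ≤ -phi a r := by
  simp [phi, phi0_of_one_le hr, ha.gg_nonneg r]

open Classical in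
lemma Adm.superadd {a : ℕ → ℝ} (ha : Adm a) (μ : ℝ) {L L' : ℝ} (hL : 0 ≤ L) (n : ℕ)
    (h : n * (L + 1) ≤ L') : n ^ 3 * ff a μ L ≤ ff a μ L' := by
  have hL' : 0 ≤ L' := le_trans (by positivity) h
  have hs : (0 : ℝ) ≤ L + 1 := by positivity
  have hd := blk_disj hs (lt_add_one L) (J n)
  refine ha.le_ff hL' ?_
  have hp := Xi_prod (ν := volume) (blk (L + 1) L) (measurableSet_blk _ _) (fun _ => W (HH a μ))
    (fun _ => ha.meas_W μ) (J n) hd
  simp only [Xi_blk] at hp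
  rw [Finset.prod_const, card_J] at hp
  have e : ENNReal.ofReal (Real.exp (n ^ 3 * ff a μ L)) = ZZ a μ L ^ n ^ 3 := by
    rw [ha.ZZ_eq μ hL, ← ENNReal.ofReal_pow (Real.exp_pos _).le, ← Real.exp_nat_mul]
    push_cast; rfl
  rw [e, ZZ, ← hp]
  refine le_trans ?_ (Xi_mono_set (blk_sub hs (lt_add_one L).le h) _)
  refine Xi_mono ((J n).measurableSet_biUnion fun j _ => measurableSet_blk _ _ j) fun l hl => ?_
  by_cases hn : ∀ j ∈ J n, (l.filter (· ∈ blk (L + 1) L j)).Nodup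
  · have hl' := nodup_of_filters hl hn
    rw [Finset.prod_congr rfl fun j hj => W_of_nodup _ (hn j hj), prod_ofReal_exp,
      W_of_nodup _ hl']
    refine ofReal_exp_le ?_
    simp only [toFinset_filter']
    have hA : ∀ x ∈ l.toFinset, x ∈ ⋃ j ∈ J n, blk (L + 1) L j :=
      fun x hx => hl x (List.mem_toFinset.1 hx)
    have h1 := diag_parts hd hA (fun x y => -phi a (dist x y)) fun i _ j _ hij x hx y hy =>
      ha.neg_phi_nonneg (by simpa using blk_dist hs hij hx hy)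
    have h2 := card_parts hd hA
    simp only [HH, Q, Finset.sum_add_distrib, ← Finset.mul_sum, h2]
    simp only [Finset.sum_neg_distrib] at h1
    linarith
  · push Not at hn
    obtain ⟨j, hj, hn⟩ := hn
    rw [Finset.prod_eq_zero hj (W_of_not_nodup _ hn)]
    exact zero_le

lemma Adm.tendsto_PP {a : ℕ → ℝ} (ha : Adm a) (μ : ℝ) :
    Tendsto (fun L : ℝ => ff a μ L / L ^ 3) atTop (𝓝 (PP a μ)) := by
  have hinv : Tendsto (fun L : ℝ => L⁻¹) atTop (𝓝 0) := tendsto_inv_atTop_zero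
  rw [tendsto_order]
  constructor
  · intro b hb
    have : Nonempty {L : ℝ // 0 ≤ L} := ⟨⟨0, le_rfl⟩⟩
    obtain ⟨⟨L0, hL0⟩, h0⟩ := exists_lt_of_lt_ciSup hb
    simp only at h0
    have hf := ha.ff_nonneg μ hL0
    have ht : Tendsto (fun L : ℝ => ((L0 + 1)⁻¹ - L⁻¹) ^ 3 * ff a μ L0) atTop
        (𝓝 (((L0 + 1)⁻¹ - 0) ^ 3 * ff a μ L0)) :=
      ((tendsto_const_nhds.sub hinv).pow 3).mul_const _
    have e : ((L0 + 1)⁻¹ - 0) ^ 3 * ff a μ L0 = ff a μ L0 / (L0 + 1) ^ 3 := by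
      rw [sub_zero, inv_pow, div_eq_inv_mul]
    rw [e] at ht
    filter_upwards [ht.eventually (lt_mem_nhds h0), eventually_ge_atTop (L0 + 1)] with L h1 h2
    have hL : 0 < L := by linarith
    set n := ⌊L / (L0 + 1)⌋₊ with hn
    have h3 : (n : ℝ) ≤ L / (L0 + 1) := Nat.floor_le (by positivity)
    have h4 : L / (L0 + 1) < n + 1 := Nat.lt_floor_add_one _
    have h5 := ha.superadd μ hL0 n ((le_div_iff₀ (by positivity)).1 h3)
    refine h1.trans_le ?_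
    rw [le_div_iff₀ (by positivity)]
    refine le_trans ?_ h5
    have h6 : ((L0 + 1)⁻¹ - L⁻¹) * L ≤ n := by
      rw [sub_mul, inv_mul_cancel₀ hL.ne', ← div_eq_inv_mul]; linarith
    have h7 : 0 ≤ ((L0 + 1)⁻¹ - L⁻¹) * L := by
      have : L⁻¹ ≤ (L0 + 1)⁻¹ := inv_anti₀ (by positivity) h2
      exact mul_nonneg (by linarith) hL.le
    calc _ = (((L0 + 1)⁻¹ - L⁻¹) * L) ^ 3 * ff a μ L0 := by ring
      _ ≤ _ := by gcongr
  · intro b hb
    have ht : Tendsto (fun L : ℝ => PP a μ * (1 + L⁻¹) ^ 3) atTop (𝓝 (PP a μ * (1 + 0) ^ 3)) :=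
      ((tendsto_const_nhds.add hinv).pow 3).const_mul _
    simp only [add_zero, one_pow, mul_one] at ht
    filter_upwards [ht.eventually (gt_mem_nhds hb), eventually_gt_atTop 0] with L h1 hL
    refine lt_of_le_of_lt ?_ h1
    rw [div_le_iff₀ (by positivity)]
    refine (ha.ff_le_PP μ hL.le).trans (le_of_eq ?_)
    field_simp

lemma Adm.tendsto_seq {a : ℕ → ℝ} (ha : Adm a) (μ : ℝ) {p : ℝ} (hp : 0 < p) :
    Tendsto (fun n : ℕ => ff a μ (n * p) / (n * p) ^ 3) atTop (𝓝 (PP a μ)) :=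
  (ha.tendsto_PP μ).comp (tendsto_natCast_atTop_atTop.atTop_mul_const hp)

lemma Adm.PP_cont (A0 μ0 : ℝ) : ∃ M : ℝ, 0 ≤ M ∧ ∀ a r : ℕ → ℝ, Adm a → Adm r →
    ∑' k, a k ≤ A0 → 27 * (∑' k, r k) / 2 ≤ 1 → ∀ μ μ' : ℝ, μ' ≤ μ → μ ≤ μ0 →
      PP (a + r) μ' ≤ PP a μ + 27 * (∑' k, r k) / 2 * M := by
  obtain ⟨C, -, hC⟩ := superstable 2 A0 μ0
  refine ⟨Real.exp C, (Real.exp_pos _).le, fun a r ha hr hA hθ μ μ' hμ hμ0 => ?_⟩
  set θ := 27 * (∑' k, r k) / 2 with hθd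
  have hθ0 : 0 ≤ θ := by have := hr.mass_nonneg; positivity
  set M := Real.exp C with hM
  have hM0 : 0 < M := Real.exp_pos _
  have key : ∀ L, 0 ≤ L → ff (a + r) μ' L ≤ Real.log 2 + θ * M * L ^ 3 + ff a μ L := by
    intro L hL
    refine (ha.add hr).ff_le hL ?_
    have h1 : ZZ (a + r) μ' L ≤ Xi volume (box L) fun l =>
        ENNReal.ofReal (Real.exp (θ * M * L ^ 3)) * W (HH a μ) l +
          ENNReal.ofReal (Real.exp (-(M * L ^ 3))) * ENNReal.ofReal (Real.exp (C * l.length)) := by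
      refine Xi_mono (measurableSet_box L) fun l _ => ?_
      by_cases hl : l.Nodup
      · rw [W_of_nodup _ hl, W_of_nodup _ hl, ← List.toFinset_card_of_nodup hl,
          ← ofReal_exp_add, ← ofReal_exp_add]
        set A := l.toFinset
        have h2 := HH_add_le ha hr μ' A
        have h3 : HH a μ' A ≤ HH a μ A := by
          unfold HH; gcongr
        have h4 := hC a ha hA μ hμ0 A
        have hS := S_nonneg 1 A
        rw [← hθd] at h2
        by_cases hc : S 1 A ≤ M * L ^ 3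
        · refine le_trans (ofReal_exp_le ?_) le_self_add
          have := mul_le_mul_of_nonneg_left hc hθ0
          linarith
        · refine le_trans (ofReal_exp_le ?_) le_add_self
          have := mul_le_mul_of_nonneg_right hθ hS
          linarith
      · rw [W_of_not_nodup _ hl]; exact zero_le
    have hm : Meas fun l : List V3 => ENNReal.ofReal (Real.exp (C * l.length)) :=
      Meas.len fun n => ENNReal.ofReal (Real.exp (C * n))
    rw [Xi_add _ ((Meas.const _).mul (ha.meas_W μ)) ((Meas.const _).mul hm),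
      Xi_const_mul _ _ (ha.meas_W μ), Xi_const_mul _ _ hm] at h1
    have h2 := Xi_ideal (ν := volume) (by positivity) (volume_box hL).le C
    have h3 : Xi volume (box L) (W (HH a μ)) = _ := ha.ZZ_eq μ hL
    rw [h3, ← ofReal_exp_add] at h1
    refine h1.trans ?_
    have h4 : ENNReal.ofReal (Real.exp (-(M * L ^ 3))) *
        Xi volume (box L) (fun l => ENNReal.ofReal (Real.exp (C * l.length))) ≤
        ENNReal.ofReal (Real.exp (θ * M * L ^ 3 + ff a μ L)) := by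
      refine (mul_le_mul_right h2 _).trans ?_
      rw [← ofReal_exp_add]
      refine ofReal_exp_le ?_
      have := ha.ff_nonneg μ hL
      have : 0 ≤ θ * M * L ^ 3 := by positivity
      linarith
    refine (add_le_add_right h4 _).trans (le_of_eq ?_)
    rw [add_assoc, ofReal_exp_add (Real.log 2), Real.exp_log two_pos, ← two_mul]
    simp
  have ht : Tendsto (fun L : ℝ => Real.log 2 * (L⁻¹) ^ 3 + θ * M + ff a μ L / L ^ 3) atTop
      (𝓝 (Real.log 2 * 0 ^ 3 + θ * M + PP a μ)) :=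
    (((tendsto_inv_atTop_zero.pow 3).const_mul _).add_const _).add (ha.tendsto_PP μ)
  have := le_of_tendsto_of_tendsto ((ha.add hr).tendsto_PP μ') ht (by
    filter_upwards [eventually_gt_atTop 0] with L hL
    have := key L hL.le
    rw [div_le_iff₀ (by positivity)]
    refine this.trans (le_of_eq ?_)
    field_simp)
  simp only [ne_eq, OfNat.ofNat_ne_zero, not_false_eq_true, zero_pow, mul_zero, zero_add] at this
  linarith

end Vale.Agent.P171
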